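import Crest.Agent.R166.Defs

/-!
# Row 166, block B3: two-by-two algebra of the edge Green function
-/

set_option autoImplicit false

open MeasureTheory ProbabilityTheory Filter Topology Complex
open scoped ENNReal NNReal BigOperators Matrix

noncomputable section

namespace Crest.Agent.R166

/-- the edge precision form -/
def b3Q (m' m : ℂ) (x : Fin 2 → ℝ) : ℝ := qf m (x 0) (x 1) + qf m' (x 1) (x 0)

/-- its matrix -/
def b3P (m' m : ℂ) : Matrix (Fin 2) (Fin 2) ℝ :=
  !![(m.re ^ 2 + m.im ^ 2) / m.im + 1 / m'.im, m.re / m.im + m'.re / m'.im;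
    m.re / m.im + m'.re / m'.im, 1 / m.im + (m'.re ^ 2 + m'.im ^ 2) / m'.im]

theorem b3P_symm (m' m : ℂ) : (b3P m' m)ᵀ = b3P m' m := by
  ext i j; fin_cases i <;> fin_cases j <;> simp [b3P]

theorem b3_qf (m : ℂ) (x y : ℝ) : qf m x y = ((y + m.re * x) ^ 2 + (m.im * x) ^ 2) / m.im := by
  unfold qf
  rw [Complex.sq_norm, Complex.normSq_apply]
  simp [sq]

theorem b3Q_eq (m' m : ℂ) (x : Fin 2 → ℝ) : b3Q m' m x = x ⬝ᵥ b3P m' m *ᵥ x := by
  simp only [b3Q, b3_qf, b3P, dotProduct, Matrix.mulVec, Fin.sum_univ_two, Matrix.of_apply,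
    Matrix.cons_val', Matrix.cons_val_zero, Matrix.cons_val_one, Matrix.cons_val_fin_one]
  ring

theorem b3_qf_nonneg {m : ℂ} (hm : 0 < m.im) (x y : ℝ) : 0 ≤ qf m x y := by
  unfold qf; positivity

theorem b3Q_nonneg {m' m : ℂ} (hm' : 0 < m'.im) (hm : 0 < m.im) (x : Fin 2 → ℝ) : 0 ≤ b3Q m' m x :=
  add_nonneg (b3_qf_nonneg hm _ _) (b3_qf_nonneg hm' _ _)

theorem b3Q_cont (m' m : ℂ) : Continuous (b3Q m' m) := by
  unfold b3Q qf; fun_prop

section
variable {m' m : ℂ} (hm' : 0 < m'.im) (hm : 0 < m.im)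
include hm' hm

theorem b3_ne : 1 - m' * m ≠ 0 := by
  intro h
  have h1 := congrArg Complex.re h
  have h2 := congrArg Complex.im h
  simp at h1 h2
  have h3 : m'.im * (m.re ^ 2 + m.im ^ 2) + m.im = 0 := by
    linear_combination -m.re * h2 + m.im * h1
  have : 0 < m'.im * (m.re ^ 2 + m.im ^ 2) + m.im := by positivity
  linarith

theorem b3_D_pos : 0 < normSq (1 - m' * m) := normSq_pos.2 (b3_ne hm' hm)

omit hm' hm in
theorem b3_D_eq : normSq (1 - m' * m) =
    (1 - (m'.re * m.re - m'.im * m.im)) ^ 2 + (m'.re * m.im + m'.im * m.re) ^ 2 := by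
  rw [Complex.normSq_apply]; simp; ring

omit hm' hm in
theorem b3_G00 : imM (GamE m' m) 0 0 = (m'.im + (m'.re ^ 2 + m'.im ^ 2) * m.im) / normSq (1 - m' * m) := by
  simp [imM, GamE, Complex.div_im]; ring

omit hm' hm in
theorem b3_G11 : imM (GamE m' m) 1 1 = (m.im + (m.re ^ 2 + m.im ^ 2) * m'.im) / normSq (1 - m' * m) := by
  simp [imM, GamE, Complex.div_im]; ring

omit hm' hm in
theorem b3_G01 : imM (GamE m' m) 0 1 = -(m'.re * m.im + m'.im * m.re) / normSq (1 - m' * m) := by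
  simp [imM, GamE, Complex.div_im]; ring

omit hm' hm in
theorem b3_G10 : imM (GamE m' m) 1 0 = -(m'.re * m.im + m'.im * m.re) / normSq (1 - m' * m) := by
  simp [imM, GamE, Complex.div_im]; ring

theorem b3_G00_pos : 0 < imM (GamE m' m) 0 0 := by
  rw [b3_G00]; have := b3_D_pos hm' hm; positivity

theorem b3_G11_pos : 0 < imM (GamE m' m) 1 1 := by
  rw [b3_G11]; have := b3_D_pos hm' hm; positivity

theorem b3_G_ne (o : Fin 2) : imM (GamE m' m) o o ≠ 0 := by
  fin_cases o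
  · exact (b3_G00_pos hm' hm).ne'
  · exact (b3_G11_pos hm' hm).ne'

theorem b3_GP : imM (GamE m' m) * b3P m' m = 1 := by
  have hD := b3_D_pos hm' hm
  ext i j
  fin_cases i <;> fin_cases j <;>
    simp only [Matrix.mul_apply, Fin.sum_univ_two, Fin.zero_eta, Fin.mk_one, b3_G00, b3_G01, b3_G10, b3_G11,
      b3P, Matrix.of_apply, Matrix.cons_val', Matrix.cons_val_zero, Matrix.cons_val_one,
      Matrix.cons_val_fin_one, Matrix.one_apply_eq, ne_eq, zero_ne_one, one_ne_zero, not_false_eq_true,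
      Matrix.one_apply_ne] <;>
    field_simp <;> (try rw [b3_D_eq]) <;> ring

theorem b3_det_pos : 0 < imM (GamE m' m) 1 1 - imM (GamE m' m) 1 0 ^ 2 / imM (GamE m' m) 0 0 := by
  have h0 := b3_G00_pos hm' hm
  have hD := b3_D_pos hm' hm
  have : imM (GamE m' m) 1 1 * imM (GamE m' m) 0 0 - imM (GamE m' m) 1 0 ^ 2 =
      m.im * m'.im / normSq (1 - m' * m) := by
    rw [b3_G00, b3_G11, b3_G10]
    field_simp
    rw [b3_D_eq]; ring
  rw [sub_pos, div_lt_iff₀ h0, ← sub_pos, this]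
  positivity

theorem b3_chol : chol2 (imM (GamE m' m)) * (chol2 (imM (GamE m' m)))ᵀ = imM (GamE m' m) := by
  have h0 := b3_G00_pos hm' hm
  have h1 := b3_det_pos hm' hm
  have hs : imM (GamE m' m) 0 1 = imM (GamE m' m) 1 0 := by rw [b3_G01, b3_G10]
  set G := imM (GamE m' m)
  have a0 : √(G 0 0) * √(G 0 0) = G 0 0 := Real.mul_self_sqrt h0.le
  have a1 := Real.mul_self_sqrt h1.le
  have a2 : √(G 0 0) ≠ 0 := (Real.sqrt_pos.2 h0).ne'
  ext i j
  fin_cases i <;> fin_cases j <;>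
    simp only [Matrix.mul_apply, Fin.sum_univ_two, Fin.zero_eta, Fin.mk_one, chol2, Matrix.transpose_apply,
      Matrix.of_apply, Matrix.cons_val', Matrix.cons_val_zero, Matrix.cons_val_one,
      Matrix.cons_val_fin_one]
  · rw [a0]; ring
  · rw [hs]; field_simp; ring
  · field_simp; ring
  · rw [a1, div_mul_div_comm, a0]; ring

end

theorem b3_G_swap (m' m : ℂ) : imM (GamE m' m) 1 1 = imM (GamE m m') 0 0 := by
  rw [b3_G11, b3_G00, mul_comm m m']

/-- the diagonal entry of the edge Green function is the star Green function -/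
theorem b3_G_Psi {q : ℕ} (s E : ℝ) (a : II) (m : Fin (q + 1) → ℂ) (i : Fin (q + 1))
    (h : 0 < (Psi s E a fun j : Fin q => m (i + j.succ)).im) :
    imM (GamE (Psi s E a fun j : Fin q => m (i + j.succ)) (m i)) 0 0 = (Psi s E a m).im := by
  have hsum : ∑ k, m k = m i + ∑ j : Fin q, m (i + j.succ) := by
    rw [← Equiv.sum_comp (Equiv.addLeft i) m, Fin.sum_univ_succ]
    simp
  have hW : (E : ℂ) - s * (a : ℝ) + ∑ j : Fin q, m (i + j.succ) ≠ 0 := by
    intro h0
    simp [Psi, h0] at h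
  simp only [imM, GamE, Matrix.map_apply, Matrix.of_apply, Matrix.cons_val', Matrix.cons_val_zero,
    Matrix.cons_val_fin_one]
  congr 1
  unfold Psi
  rw [hsum]
  set W := (E : ℂ) - s * (a : ℝ) + ∑ j : Fin q, m (i + j.succ) with hWdef
  have : (E : ℂ) - s * (a : ℝ) + (m i + ∑ j : Fin q, m (i + j.succ)) = W * (1 - -W⁻¹ * m i) := by
    have : W * (1 - -W⁻¹ * m i) = W + m i := by field_simp; ring
    rw [this, hWdef]; ring
  rw [this, mul_inv, div_eq_mul_inv]
  ring

end Crest.Agent.R166
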