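import Crest.Agent.R166.B3.Ode

/-!
# Row 166, block B3: disintegration lemmas
-/

set_option autoImplicit false

open MeasureTheory ProbabilityTheory Filter Topology Complex
open scoped ENNReal NNReal BigOperators Matrix

noncomputable section

namespace Crest.Agent.R166

theorem b3_cond_map {A A' X X' : Type} [MeasurableSpace A] [MeasurableSpace A'] [MeasurableSpace X]
    [MeasurableSpace X'] [StandardBorelSpace X] [Nonempty X] [StandardBorelSpace X'] [Nonempty X']
    (P : Measure (A × X)) [IsProbabilityMeasure P] (Q : Measure (A' × X')) [IsProbabilityMeasure Q]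
    {f : A → A'} (hf : Measurable f) {g : A' → A} (hg : Measurable g) (hgf : ∀ a, g (f a) = a)
    {h : X → X'} (hh : Measurable h) (hPQ : P.map (fun x => (f x.1, h x.2)) = Q) :
    ∀ᵐ a ∂P.fst, (P.condKernel a).map h = Q.condKernel (f a) := by
  have hm : Measurable fun x : A × X => (f x.1, h x.2) := by fun_prop
  have hfst : Q.fst = P.fst.map f := by
    rw [← hPQ, Measure.fst, Measure.fst, Measure.map_map measurable_fst hm,
      Measure.map_map hf measurable_fst]
    rfl
  set η : Kernel A' X' := (P.condKernel.comap g hg).map h with hη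
  have : IsMarkovKernel η := Kernel.IsMarkovKernel.map _ hh
  have hQ : Q = Q.fst ⊗ₘ η := by
    ext s hs
    rw [Measure.compProd_apply hs, hfst, lintegral_map (Kernel.measurable_kernel_prodMk_left hs) hf,
      ← hPQ, Measure.map_apply hm hs]
    conv_lhs => rw [← P.disintegrate P.condKernel]
    rw [Measure.compProd_apply (hm hs)]
    refine lintegral_congr fun a => ?_
    rw [hη, Kernel.map_apply' _ hh _ (measurable_prodMk_left hs), Kernel.comap_apply, hgf]
    rfl
  have h1 := eq_condKernel_of_measure_eq_compProd η hQ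
  rw [hfst] at h1
  filter_upwards [ae_of_ae_map hf.aemeasurable h1] with a ha
  rw [← ha, hη, Kernel.map_apply _ hh, Kernel.comap_apply, hgf]

theorem b3_ae_zero {A : Type} [TopologicalSpace A] [MeasurableSpace A] [HasOuterApproxClosed A]
    [BorelSpace A] (μ : Measure A) {g : A → ℝ} (hg : Integrable g μ)
    (h : ∀ φ : BoundedContinuousFunction A ℝ, ∫ a, φ a * g a ∂μ = 0) : g =ᵐ[μ] 0 := by
  have hp : AEMeasurable (fun a => (g a).toNNReal) μ := hg.aemeasurable.real_toNNReal
  have hn : AEMeasurable (fun a => (-g a).toNNReal) μ := hg.neg.aemeasurable.real_toNNReal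
  have f1 := isFiniteMeasure_withDensity_ofReal hg.2
  have f2 := isFiniteMeasure_withDensity_ofReal hg.neg.2
  have he : μ.withDensity (fun a => ENNReal.ofReal (g a)) = μ.withDensity fun a => ENNReal.ofReal (-g a) := by
    refine @ext_of_forall_integral_eq_of_IsFiniteMeasure _ _ _ _ _ _ _ f1 f2 fun φ => ?_
    unfold ENNReal.ofReal
    rw [integral_withDensity_eq_integral_smul₀ hp, integral_withDensity_eq_integral_smul₀ hn, ← sub_eq_zero,
      ← h φ, ← integral_sub]
    · refine integral_congr_ae (ae_of_all _ fun a => ?_)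
      simp only [NNReal.smul_def, smul_eq_mul, Real.coe_toNNReal']
      rcases le_total 0 (g a) with h1 | h1
      · rw [max_eq_left h1, max_eq_right (neg_nonpos.2 h1)]; ring
      · rw [max_eq_right h1, max_eq_left (neg_nonneg.2 h1)]; ring
    · simp only [NNReal.smul_def, smul_eq_mul, Real.coe_toNNReal']
      exact hg.pos_part.mul_bdd φ.continuous.aestronglyMeasurable
        (ae_of_all _ fun a => φ.norm_coe_le_norm a)
    · simp only [NNReal.smul_def, smul_eq_mul, Real.coe_toNNReal']
      exact hg.neg.pos_part.mul_bdd φ.continuous.aestronglyMeasurable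
        (ae_of_all _ fun a => φ.norm_coe_le_norm a)
  have he' := (withDensity_eq_iff hg.aemeasurable.ennreal_ofReal hg.neg.aemeasurable.ennreal_ofReal
    hg.lintegral_lt_top.ne).1 he
  filter_upwards [he'] with a ha
  simp only [Pi.neg_apply] at ha
  rcases le_total 0 (g a) with h1 | h1
  · rw [ENNReal.ofReal_of_nonpos (neg_nonpos.2 h1), ENNReal.ofReal_eq_zero] at ha
    exact le_antisymm ha h1
  · rw [ENNReal.ofReal_of_nonpos h1, eq_comm, ENNReal.ofReal_eq_zero] at ha
    exact le_antisymm h1 (neg_nonpos.1 ha)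

theorem b3_ext {A ι : Type} [Fintype A] [Fintype ι] {κ κ' : Measure (A → ι → ℝ)} [IsFiniteMeasure κ]
    [IsFiniteMeasure κ'] (h : ∀ ξ, b3phi κ ξ = b3phi κ' ξ) : κ = κ' := by
  classical
  refine Measure.ext_of_charFunDual (funext fun L => ?_)
  have e : ∀ u : A → ι → ℝ, L u = b3ip (fun a o => L (Pi.single a (Pi.single o 1))) u := by
    intro u
    have : u = ∑ a, ∑ o, u a o • (Pi.single a (Pi.single o 1) : A → ι → ℝ) := by
      funext b k
      simp [Finset.sum_apply, Pi.single_apply, ite_apply]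
    conv_lhs => rw [this]
    simp only [map_sum, map_smul, smul_eq_mul, b3ip, mul_comm]
  have := h fun a o => L (Pi.single a (Pi.single o 1))
  simpa only [charFunDual_apply, b3phi, ← e] using this

theorem b3phi_wave {A ι : Type} [Fintype A] [Fintype ι] (c : ℝ) (C : Matrix ι ι ℝ) (ξ : A → ι → ℝ) :
    b3phi ((gpi2 A ι).map fun w a => c • (C *ᵥ w a)) ξ =
      cexp (-((∑ a, ∑ o, ξ a o * ∑ o', c ^ 2 * (C * Cᵀ) o o' * ξ a o' : ℝ) : ℂ) / 2) := by
  have := b3ip_meas ξ
  unfold b3phi
  rw [integral_map (Continuous.measurable (by fun_prop)).aemeasurable (Measurable.aestronglyMeasurable (by fun_prop))]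
  have e : ∀ w : A → ι → ℝ, b3ip ξ (fun a => c • (C *ᵥ w a)) = ∑ a, ∑ o, (c • (Cᵀ *ᵥ ξ a)) o * w a o := by
    intro w
    refine Finset.sum_congr rfl fun a _ => ?_
    have : ξ a ⬝ᵥ (c • (C *ᵥ w a)) = (c • (Cᵀ *ᵥ ξ a)) ⬝ᵥ w a := by
      rw [dotProduct_smul, smul_dotProduct, Matrix.mulVec_transpose, Matrix.dotProduct_mulVec]
    exact this
  simp only [e]
  rw [b3_char]
  congr 4
  refine Finset.sum_congr rfl fun a _ => ?_
  have : (c • (Cᵀ *ᵥ ξ a)) ⬝ᵥ (c • (Cᵀ *ᵥ ξ a)) = ξ a ⬝ᵥ ((c ^ 2 • (C * Cᵀ)) *ᵥ ξ a) := by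
    rw [dotProduct_smul, smul_dotProduct, Matrix.smul_mulVec, dotProduct_smul, ← Matrix.mulVec_mulVec,
      Matrix.dotProduct_mulVec (ξ a) C, ← Matrix.mulVec_transpose, smul_smul, sq]
  simp only [sq]
  refine this.trans ?_
  simp only [dotProduct, Matrix.mulVec, Matrix.smul_apply, smul_eq_mul, sq]

end Crest.Agent.R166
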