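import Crest.Agent.R166.Defs

/-!
# Row 166, block B3: ergodicity of the non-backtracking shift on edge environments
-/

set_option autoImplicit false

open MeasureTheory ProbabilityTheory Filter Topology
open scoped ENNReal NNReal BigOperators symmDiff

noncomputable section

namespace Crest.Agent.R166

theorem b3_ergodic_pi {J X : Type} [MeasurableSpace X] (ν : Measure X) [IsProbabilityMeasure ν]
    (τ : J → J) (hτ : Function.Injective τ) (ht : J → ℤ) (hht : ∀ i, ht i + 1 ≤ ht (τ i)) :
    Ergodic (fun (w : J → X) i => w (τ i)) (Measure.infinitePi fun _ : J => ν) := by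
  classical
  set μ := Measure.infinitePi fun _ : J => ν with hμ
  set f : (J → X) → J → X := fun w i => w (τ i) with hf
  have hmp : MeasurePreserving f μ μ :=
    ⟨by fun_prop, Measure.map_infinitePi_infinitePi_of_inj hτ⟩
  refine ⟨hmp, ⟨fun s hs hfs => ?_⟩⟩
  have hit : ∀ n (w : J → X) i, (f^[n] w) i = w (τ^[n] i) := by
    intro n
    induction n with
    | zero => intro w i; rfl
    | succ n ih => intro w i; rw [Function.iterate_succ_apply', Function.iterate_succ_apply]; exact ih w (τ i)
  have hesc : ∀ (n : ℕ) i, ht i + n ≤ ht (τ^[n] i) := by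
    intro n i
    induction n with
    | zero => simp
    | succ n ih =>
      rw [Function.iterate_succ_apply']
      have := hht (τ^[n] i)
      push_cast; linarith
  have key : ∀ ε : ℝ, 0 < ε → |μ.real s - μ.real s ^ 2| ≤ 4 * ε := by
    intro ε hε
    obtain ⟨C, hC, hsC⟩ := (Measure.MeasureDense.of_generateFrom_isSetAlgebra_finite μ
      isSetAlgebra_measurableCylinders generateFrom_measurableCylinders.symm).approx s hs
      (measure_ne_top _ _) ε hε
    have hCm : MeasurableSet C := MeasurableSet.of_mem_measurableCylinders hC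
    obtain ⟨S, A, hA, rfl⟩ := (mem_measurableCylinders C).1 hC
    obtain ⟨n, hn⟩ : ∃ n : ℕ, ∀ i ∈ S, ∀ j ∈ S, ht j - ht i < n := by
      obtain ⟨M, hM⟩ := ((S ×ˢ S).image fun p => ht p.2 - ht p.1).bddAbove
      obtain ⟨n, hn⟩ := exists_nat_gt M
      exact ⟨n, fun i hi j hj => (hM (Finset.mem_coe.2 (Finset.mem_image.2
        ⟨(i, j), Finset.mem_product.2 ⟨hi, hj⟩, rfl⟩))).trans_lt hn⟩
    have hdis : Disjoint S (S.image τ^[n]) := by
      rw [Finset.disjoint_left]
      intro j hj hj'
      obtain ⟨i, hi, rfl⟩ := Finset.mem_image.1 hj'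
      have := hesc n i
      have := hn i hi _ hj
      linarith
    have h1 : iIndepFun (fun (i : J) (w : J → X) => w i) μ :=
      iIndepFun_infinitePi (X := fun _ x => x) (by fun_prop)
    have h2 := (h1.indepFun_finset S _ hdis (by fun_prop)).comp (φ := id)
      (ψ := fun (v : (S.image τ^[n]) → X) (i : S) => v ⟨τ^[n] i, Finset.mem_image_of_mem _ i.2⟩)
      measurable_id (by fun_prop)
    rw [indepFun_iff_measure_inter_preimage_eq_mul] at h2
    have h3 := h2 A A hA hA
    set C := cylinder (α := fun _ : J => X) S A with hCdef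
    set C' := f^[n] ⁻¹' C with hC'
    have e' : ((fun (v : (S.image τ^[n]) → X) (i : S) => v ⟨τ^[n] i, Finset.mem_image_of_mem _ i.2⟩) ∘
        fun (a : J → X) (i : (S.image τ^[n])) => a i) ⁻¹' A = C' := by
      ext w
      have : (S.restrict (f^[n] w)) = fun i : S => w (τ^[n] i) := funext fun i => hit n w i
      simp only [hC', hCdef, Set.mem_preimage, mem_cylinder, this]
      rfl
    rw [e'] at h3
    have h4 : μ.real (C ∩ C') = μ.real C * μ.real C := by
      have : μ C' = μ C := (hmp.iterate n).measure_preimage hCm.nullMeasurableSet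
      have h5 : μ (C ∩ C') = μ C * μ C := by rw [← this]; nth_rewrite 1 [this]; exact h3
      simp only [Measure.real, h5, ENNReal.toReal_mul]
    have h5 : μ.real (s ∆ C) ≤ ε := ENNReal.toReal_le_of_le_ofReal hε.le hsC.le
    have h6 : μ.real (s ∆ C') ≤ ε := by
      have : s ∆ C' = f^[n] ⁻¹' (s ∆ C) := by
        rw [Set.preimage_symmDiff, Function.IsFixedPt.preimage_iterate hfs n]
      rw [this, Measure.real, (hmp.iterate n).measure_preimage (hs.symmDiff hCm).nullMeasurableSet]
      exact h5
    have h7 : |μ.real s - μ.real C| ≤ ε :=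
      (abs_measureReal_sub_le_measureReal_symmDiff hs.nullMeasurableSet hCm.nullMeasurableSet).trans h5
    have h8 : |μ.real s - μ.real (C ∩ C')| ≤ 2 * ε := by
      refine (abs_measureReal_sub_le_measureReal_symmDiff hs.nullMeasurableSet
        (hCm.inter ((hmp.iterate n).measurable hCm)).nullMeasurableSet).trans ?_
      have : s ∆ (C ∩ C') ⊆ s ∆ C ∪ s ∆ C' := by
        intro w
        simp only [Set.mem_symmDiff, Set.mem_inter_iff, Set.mem_union]
        tauto
      refine (measureReal_mono this).trans ((measureReal_union_le _ _).trans ?_)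
      linarith
    rw [h4] at h8
    have b1 : μ.real s ≤ 1 := measureReal_le_one
    have b2 : μ.real C ≤ 1 := measureReal_le_one
    have b3 : 0 ≤ μ.real s := measureReal_nonneg
    have b4 : 0 ≤ μ.real C := measureReal_nonneg
    rw [abs_le] at h7 h8 ⊢
    constructor <;> nlinarith
  have h0 : μ.real s - μ.real s ^ 2 = 0 := by
    rw [← abs_nonpos_iff]
    refine le_of_forall_pos_le_add fun ε hε => ?_
    have := key (ε / 4) (by positivity)
    linarith
  rw [eventuallyConst_set']
  have : μ.real s * (1 - μ.real s) = 0 := by linarith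
  rcases mul_eq_zero.1 this with h | h
  · left
    rw [ae_eq_empty, ← measureReal_eq_zero_iff]; exact h
  · right
    rw [ae_eq_univ, ← measureReal_eq_zero_iff, probReal_compl_eq_one_sub hs]; exact h

variable {q : ℕ}

/-- the `i`-th edge environment of a star environment -/
def b3eps (i : Fin (q + 1)) (e : SEnv q) : EEnv q := (nearV e i, e.2 i)

/-- the star environment at the near end of an edge -/
def b3inv (ε : EEnv q) : SEnv q := (ε.1 [], Fin.cons ε.2 fun j => child ε.1 j)

theorem b3eps_inv (ε : EEnv q) : b3eps 0 (b3inv ε) = ε := by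
  refine Prod.ext ?_ rfl
  funext l
  cases l with
  | nil => rfl
  | cons j l => simp [b3eps, b3inv, nearV, cons, child]

theorem b3inv_eps (e : SEnv q) : b3inv (b3eps 0 e) = e := by
  refine Prod.ext rfl ?_
  funext k
  refine Fin.cases rfl (fun j => ?_) k
  funext l
  simp [b3eps, b3inv, nearV, cons, child]

theorem b3inv_meas : Measurable (b3inv : EEnv q → SEnv q) := by
  refine Measurable.prodMk (by fun_prop) (measurable_pi_lambda _ fun k => ?_)
  refine Fin.cases measurable_snd (fun j => ?_) k
  simp only [Fin.cons_succ]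
  unfold child
  fun_prop

/-- the shift: rotate to the edge `j₀ + 1` and reverse it -/
def b3T (j₀ : Fin q) (ε : EEnv q) : EEnv q := (b3eps j₀.succ (b3inv ε)).swap

/-- positions of the subtrees of the star at the near end -/
def b3idx : Fin (q + 1) → List (Fin q) → Bool × List (Fin q) :=
  Fin.cons (fun l => (false, l)) fun j l => (true, j :: l)

/-- the shift on indices -/
def b3tau (j₀ : Fin q) : Bool × List (Fin q) → Bool × List (Fin q)
  | (true, l) => b3idx j₀.succ l
  | (false, []) => (true, [])
  | (false, j :: l) => b3idx (j₀.succ + j.succ) l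

theorem b3idx_inj {k k' : Fin (q + 1)} {l l' : List (Fin q)} (h : b3idx k l = b3idx k' l') :
    k = k' ∧ l = l' := by
  revert h
  refine Fin.cases ?_ (fun j => ?_) k <;> refine Fin.cases ?_ (fun j' => ?_) k' <;> simp [b3idx]

theorem b3idx_ne (k : Fin (q + 1)) (l : List (Fin q)) : b3idx k l ≠ (true, []) := by
  refine Fin.cases ?_ (fun j => ?_) k <;> simp [b3idx]

theorem b3tau_inj (j₀ : Fin q) : Function.Injective (b3tau j₀) := by
  have hne : ∀ j : Fin q, j₀.succ ≠ j₀.succ + j.succ := fun j h =>
    Fin.succ_ne_zero j (left_eq_add.1 h)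
  rintro ⟨b, l⟩ ⟨b', l'⟩ h
  cases b <;> cases b'
  · rcases l with _ | ⟨j, l⟩ <;> rcases l' with _ | ⟨j', l'⟩
    · rfl
    · exact absurd h.symm (b3idx_ne _ _)
    · exact absurd h (b3idx_ne _ _)
    · obtain ⟨h1, h2⟩ := b3idx_inj (show b3idx _ _ = b3idx _ _ from h)
      rw [Fin.succ_inj.1 (add_left_cancel h1), h2]
  · rcases l with _ | ⟨j, l⟩
    · exact absurd h.symm (b3idx_ne _ _)
    · exact absurd (b3idx_inj (show b3idx _ _ = b3idx _ _ from h)).1.symm (hne j)
  · rcases l' with _ | ⟨j, l'⟩
    · exact absurd h (b3idx_ne _ _)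
    · exact absurd (b3idx_inj (show b3idx _ _ = b3idx _ _ from h)).1 (hne j)
  · rw [(b3idx_inj (show b3idx _ _ = b3idx _ _ from h)).2]

/-- height function increasing along the shift -/
def b3ht : Bool × List (Fin q) → ℤ
  | (true, l) => l.length
  | (false, l) => -l.length - 1

theorem b3ht_tau (j₀ : Fin q) (i : Bool × List (Fin q)) : b3ht i + 1 ≤ b3ht (b3tau j₀ i) := by
  obtain ⟨b, l⟩ := i
  cases b
  · rcases l with _ | ⟨j, l⟩
    · simp [b3tau, b3ht]
    · simp only [b3tau]
      refine Fin.cases ?_ (fun k => ?_) (j₀.succ + j.succ) <;> (simp [b3idx, b3ht]; try omega)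
  · simp [b3tau, b3idx, b3ht]

theorem b3_ergodic (π : Measure II) [IsProbabilityMeasure π] (j₀ : Fin q) (hT : Measurable (b3T j₀)) :
    Ergodic (b3T j₀ ∘ b3T j₀) (edgeLaw q π) := by
  set Φ : (Bool × List (Fin q) → II) → EEnv q := fun w => (fun l => w (true, l), fun l => w (false, l))
    with hΦ
  have hmp : MeasurePreserving Φ (Measure.infinitePi fun _ => π) (edgeLaw q π) := by
    refine ⟨by fun_prop, ?_⟩
    have h1 := Measure.infinitePi_map_curry (fun (_ : Bool) (_ : List (Fin q)) => π)
    have h2 := Measure.infinitePi_map_eval_prod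
      (P := fun _ : Bool => Measure.infinitePi fun _ : List (Fin q) => π) (i := true) (j := false) (by simp)
    rw [← h1, Measure.map_map (by fun_prop) (MeasurableEquiv.measurable _)] at h2
    exact h2
  have hsc : ∀ w, Φ (fun i => w (b3tau j₀ i)) = b3T j₀ (Φ w) := by
    intro w
    have hidx : ∀ k l, (b3inv (Φ w)).2 k l = w (b3idx k l) := by
      intro k l
      refine Fin.cases ?_ (fun j => ?_) k <;> simp [b3inv, b3idx, hΦ, child]
    refine Prod.ext ?_ ?_
    · funext l
      exact (hidx _ l).symm
    · funext l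
      rcases l with _ | ⟨j, l⟩
      · rfl
      · exact (hidx _ l).symm
  refine hmp.ergodic_of_ergodic_semiconj (b3_ergodic_pi π (b3tau j₀ ∘ b3tau j₀)
    ((b3tau_inj j₀).comp (b3tau_inj j₀)) b3ht fun i => ?_) (hT.comp hT) fun w => ?_
  · have h1 := b3ht_tau j₀ i
    have h2 := b3ht_tau j₀ (b3tau j₀ i)
    simp only [Function.comp]
    linarith
  · simp only [Function.comp]
    rw [← hsc w]
    exact hsc fun i => w (b3tau j₀ i)

end Crest.Agent.R166
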