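import Crest.Agent.R166.Defs

/-!
# Row 166, block B3: Gaussian integrals and the whitened posterior-mean identity
-/

set_option autoImplicit false

open MeasureTheory ProbabilityTheory Filter Topology Complex
open scoped ENNReal NNReal BigOperators Matrix

noncomputable section

namespace Crest.Agent.R166

theorem b3_mem (z : ℂ) : z.re ∈ interior (integrableExpSet id (gaussianReal 0 1)) := by
  simp [integrableExpSet_id_gaussianReal]

theorem b3_g0 (z : ℂ) : ∫ t : ℝ, (t : ℂ) ^ 0 * cexp (z * t) ∂gaussianReal 0 1 = cexp (z ^ 2 / 2) := by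
  have := complexMGF_id_gaussianReal (μ := 0) (v := 1) z
  simpa [complexMGF] using this

theorem b3_dexp (z : ℂ) : HasDerivAt (fun z : ℂ => cexp (z ^ 2 / 2)) (z * cexp (z ^ 2 / 2)) z := by
  have h1 : HasDerivAt (fun z : ℂ => z ^ 2 / 2) z z := by
    simpa using (hasDerivAt_pow 2 z).div_const 2
  simpa [mul_comm] using h1.cexp

theorem b3_g1 (z : ℂ) :
    ∫ t : ℝ, (t : ℂ) ^ 1 * cexp (z * t) ∂gaussianReal 0 1 = z * cexp (z ^ 2 / 2) := by
  have h := hasDerivAt_integral_pow_mul_exp (b3_mem z) 0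
  simp only [id] at h
  have e : (fun z : ℂ => ∫ t : ℝ, (t : ℂ) ^ 0 * cexp (z * t) ∂gaussianReal 0 1) =
      fun z => cexp (z ^ 2 / 2) := funext b3_g0
  rw [e] at h
  exact h.unique (b3_dexp z)

theorem b3_g2 (z : ℂ) :
    ∫ t : ℝ, (t : ℂ) ^ 2 * cexp (z * t) ∂gaussianReal 0 1 = (1 + z ^ 2) * cexp (z ^ 2 / 2) := by
  have h := hasDerivAt_integral_pow_mul_exp (b3_mem z) 1
  simp only [id] at h
  have e : (fun z : ℂ => ∫ t : ℝ, (t : ℂ) ^ 1 * cexp (z * t) ∂gaussianReal 0 1) =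
      fun z => z * cexp (z ^ 2 / 2) := funext b3_g1
  rw [e] at h
  have h2 := (hasDerivAt_id z).mul (b3_dexp z)
  refine (h.unique h2).trans ?_
  simp only [id]; ring

theorem b3_gi (z : ℂ) (n : ℕ) :
    Integrable (fun t : ℝ => (t : ℂ) ^ n * cexp (z * t)) (gaussianReal 0 1) :=
  integrable_pow_mul_cexp_of_re_mem_interior_integrableExpSet (b3_mem z) n

/-- one-dimensional factor -/
def b3e (n : ℕ) (y η t : ℝ) : ℂ := (t : ℂ) ^ n * cexp ((y + η * I) * t) * cexp (-(y : ℂ) ^ 2 / 2)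

theorem b3e_int (n : ℕ) (y η : ℝ) : Integrable (b3e n y η) (gaussianReal 0 1) :=
  (b3_gi _ n).mul_const _

theorem b3e_exp (y η : ℝ) : cexp ((y + η * I) ^ 2 / 2) * cexp (-(y : ℂ) ^ 2 / 2) =
    cexp (η * y * I) * cexp (-(η : ℂ) ^ 2 / 2) := by
  rw [← Complex.exp_add, ← Complex.exp_add]
  congr 1
  linear_combination (η : ℂ) ^ 2 / 2 * I_mul_I

theorem b3e_integral {n : ℕ} (hn : n ≤ 1) (y η : ℝ) : ∫ t, b3e n y η t ∂gaussianReal 0 1 =
    (y + η * I) ^ n * (cexp (η * y * I) * cexp (-(η : ℂ) ^ 2 / 2)) := by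
  unfold b3e
  rw [integral_mul_const]
  interval_cases n
  · rw [b3_g0, b3e_exp]; simp
  · rw [b3_g1, mul_assoc, b3e_exp]; simp

theorem b3e_norm (n : ℕ) (y η t : ℝ) : ‖b3e n y η t‖ = |t| ^ n * Real.exp (t * y - y ^ 2 / 2) := by
  unfold b3e
  rw [mul_assoc, ← Complex.exp_add, norm_mul, norm_pow, Complex.norm_real, Real.norm_eq_abs,
    Complex.norm_exp]
  congr 2
  have : (-(y : ℂ) ^ 2 / 2) = ((-y ^ 2 / 2 : ℝ) : ℂ) := by push_cast; ring
  rw [this, add_re, ofReal_re]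
  simp; ring

theorem b3e_real (n : ℕ) (y t : ℝ) : b3e n y 0 t = ((t ^ n * Real.exp (t * y - y ^ 2 / 2) : ℝ) : ℂ) := by
  unfold b3e
  rw [mul_assoc, ← Complex.exp_add]
  push_cast
  congr 2
  ring

theorem b3e_norm_integral {n : ℕ} (hn : n ≤ 1) (y η : ℝ) :
    ∫ t, ‖b3e n y η t‖ ∂gaussianReal 0 1 ≤ (2 + y ^ 2) ^ n := by
  have hi : ∀ k, Integrable (fun t : ℝ => t ^ k * Real.exp (t * y - y ^ 2 / 2)) (gaussianReal 0 1) := by
    intro k
    have := (b3e_int k y 0).re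
    simpa only [b3e_real, RCLike.re_to_complex, ofReal_re] using this
  have h0 : ∫ t : ℝ, t ^ 0 * Real.exp (t * y - y ^ 2 / 2) ∂gaussianReal 0 1 = 1 := by
    have := b3e_integral (n := 0) zero_le_one y 0
    simp only [b3e_real, integral_complex_ofReal] at this
    have h2 : ((∫ t : ℝ, t ^ 0 * Real.exp (t * y - y ^ 2 / 2) ∂gaussianReal 0 1 : ℝ) : ℂ) = 1 :=
      this.trans (by simp)
    exact_mod_cast h2
  have h2 : ∫ t : ℝ, t ^ 2 * Real.exp (t * y - y ^ 2 / 2) ∂gaussianReal 0 1 = 1 + y ^ 2 := by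
    have : ∫ t, b3e 2 y 0 t ∂gaussianReal 0 1 = ((1 + y ^ 2 : ℝ) : ℂ) := by
      unfold b3e
      rw [integral_mul_const, b3_g2, mul_assoc, b3e_exp]; simp
    simp only [b3e_real, integral_complex_ofReal] at this
    exact_mod_cast this
  simp only [b3e_norm]
  interval_cases n
  · simpa using h0.le
  · calc _ ≤ ∫ t : ℝ, (t ^ 0 * Real.exp (t * y - y ^ 2 / 2) + t ^ 2 * Real.exp (t * y - y ^ 2 / 2))
          ∂gaussianReal 0 1 := by
          refine integral_mono_of_nonneg (ae_of_all _ fun t => by positivity) ((hi 0).add (hi 2))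
            (ae_of_all _ fun t => ?_)
          simp only
          rw [← add_mul]
          refine mul_le_mul_of_nonneg_right ?_ (Real.exp_pos _).le
          nlinarith [sq_abs t, abs_nonneg t, sq_nonneg (|t| - 1)]
      _ = _ := by rw [integral_add (hi 0) (hi 2), h0, h2]; ring

section Multi
variable {A ι : Type} [Fintype A] [Fintype ι]

/-- product of the one-dimensional factors -/
def b3F (n : A → ι → ℕ) (y η w : A → ι → ℝ) : ℂ := ∏ a, ∏ o, b3e (n a o) (y a o) (η a o) (w a o)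

theorem b3F_int (n : A → ι → ℕ) (y η : A → ι → ℝ) : Integrable (b3F n y η) (gpi2 A ι) :=
  Integrable.fintype_prod (f := fun a (v : ι → ℝ) => ∏ o, b3e (n a o) (y a o) (η a o) (v o))
    fun a => Integrable.fintype_prod (f := fun o => b3e (n a o) (y a o) (η a o)) fun _ => b3e_int _ _ _

theorem b3F_integral {n : A → ι → ℕ} (hn : ∀ a o, n a o ≤ 1) (y η : A → ι → ℝ) :
    ∫ w, b3F n y η w ∂gpi2 A ι = (∏ a, ∏ o, ((y a o : ℂ) + η a o * I) ^ n a o) *
      (cexp ((∑ a, ∑ o, η a o * y a o : ℝ) * I) * cexp (-((∑ a, ∑ o, η a o ^ 2 : ℝ) : ℂ) / 2)) := by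
  unfold b3F gpi2
  rw [integral_fintype_prod_eq_prod (fun a (v : ι → ℝ) => ∏ o, b3e (n a o) (y a o) (η a o) (v o))]
  have : ∀ a, ∫ v : ι → ℝ, ∏ o, b3e (n a o) (y a o) (η a o) (v o) ∂gpi ι =
      ∏ o, (((y a o : ℂ) + η a o * I) ^ n a o *
        (cexp (η a o * y a o * I) * cexp (-(η a o : ℂ) ^ 2 / 2))) := by
    intro a
    unfold gpi R164.gpi
    rw [integral_fintype_prod_eq_prod (fun o => b3e (n a o) (y a o) (η a o))]
    exact Finset.prod_congr rfl fun o _ => b3e_integral (hn a o) _ _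
  simp only [this, Finset.prod_mul_distrib]
  congr 2
  · push_cast
    simp only [Finset.sum_mul, Complex.exp_sum]
  · push_cast
    simp only [← Finset.sum_neg_distrib, Finset.sum_div, Complex.exp_sum]

theorem b3F_norm_integral {n : A → ι → ℕ} (hn : ∀ a o, n a o ≤ 1) (y η : A → ι → ℝ) :
    ∫ w, ‖b3F n y η w‖ ∂gpi2 A ι ≤ ∏ a, ∏ o, (2 + y a o ^ 2) ^ n a o := by
  unfold b3F gpi2
  simp only [norm_prod]
  rw [integral_fintype_prod_eq_prod (fun a (v : ι → ℝ) => ∏ o, ‖b3e (n a o) (y a o) (η a o) (v o)‖)]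
  refine Finset.prod_le_prod (fun a _ => integral_nonneg fun v => by positivity) fun a _ => ?_
  unfold gpi R164.gpi
  rw [integral_fintype_prod_eq_prod (fun o t => ‖b3e (n a o) (y a o) (η a o) t‖)]
  exact Finset.prod_le_prod (fun o _ => integral_nonneg fun v => by positivity)
    fun o _ => b3e_norm_integral (hn a o) _ _

theorem b3F_eq (n : A → ι → ℕ) (y η w : A → ι → ℝ) : b3F n y η w =
    (∏ a, ∏ o, (w a o : ℂ) ^ n a o) * ((Real.exp (∑ a, ∑ o, (w a o * y a o - y a o ^ 2 / 2)) : ℝ) *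
      cexp ((∑ a, ∑ o, η a o * w a o : ℝ) * I)) := by
  unfold b3F b3e
  simp only [mul_assoc, Finset.prod_mul_distrib]
  congr 1
  push_cast
  simp only [Finset.sum_mul, Complex.exp_sum, ← Finset.prod_mul_distrib, ← Complex.exp_add]
  refine Finset.prod_congr rfl fun a _ => Finset.prod_congr rfl fun o _ => ?_
  congr 1
  ring

theorem b3F_cont (n : A → ι → ℕ) (η : A → ι → ℝ) :
    Continuous fun p : (A → ι → ℝ) × (A → ι → ℝ) => b3F n p.1 η p.2 := by
  unfold b3F b3e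
  fun_prop

open Classical in
/-- the exponent pattern selecting the coordinate `(b, k)` -/
def b3s (b : A) (k : ι) : A → ι → ℕ := fun a o => if a = b ∧ o = k then 1 else 0

omit [Fintype A] [Fintype ι] in
theorem b3s_le (b : A) (k : ι) (a : A) (o : ι) : b3s b k a o ≤ 1 := by
  unfold b3s; split_ifs <;> simp

theorem b3s_prod {M : Type} [CommMonoid M] (b : A) (k : ι) (x : A → ι → M) :
    ∏ a, ∏ o, x a o ^ b3s b k a o = x b k := by
  classical
  rw [Finset.prod_eq_single b, Finset.prod_eq_single k]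
  · simp [b3s]
  · intro o _ ho; simp [b3s, ho]
  · simp
  · intro a _ ha; simp [b3s, ha]
  · simp

theorem b3_fubini {X : Type} [MeasurableSpace X] (κ : Measure X) [IsFiniteMeasure κ]
    {Y : X → A → ι → ℝ} (hY : Measurable Y) {V : X → ℝ} (hV : Measurable V) {n : A → ι → ℕ}
    (hn : ∀ a o, n a o ≤ 1) (η : A → ι → ℝ)
    (hi : Integrable (fun u => |V u| * ∏ a, ∏ o, (2 + Y u a o ^ 2) ^ n a o) κ) :
    Integrable (fun p : X × (A → ι → ℝ) => (V p.1 : ℂ) * b3F n (Y p.1) η p.2) (κ.prod (gpi2 A ι)) := by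
  have hm : Measurable fun p : X × (A → ι → ℝ) => (V p.1 : ℂ) * b3F n (Y p.1) η p.2 := by
    unfold b3F b3e
    fun_prop
  rw [integrable_prod_iff hm.aestronglyMeasurable]
  refine ⟨ae_of_all _ fun u => (b3F_int n (Y u) η).const_mul (V u : ℂ), ?_⟩
  refine hi.mono' hm.norm.stronglyMeasurable.integral_prod_right'.aestronglyMeasurable
    (ae_of_all _ fun u => ?_)
  rw [Real.norm_of_nonneg (integral_nonneg fun _ => norm_nonneg _)]
  simp only [norm_mul, Complex.norm_real, Real.norm_eq_abs]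
  rw [integral_const_mul]
  exact mul_le_mul_of_nonneg_left (b3F_norm_integral hn _ _) (abs_nonneg _)

theorem b3_swap {X : Type} [MeasurableSpace X] (κ : Measure X) [IsFiniteMeasure κ]
    {Y : X → A → ι → ℝ} (hY : Measurable Y) {V : X → ℝ} (hV : Measurable V) {n : A → ι → ℕ}
    (hn : ∀ a o, n a o ≤ 1) (η : A → ι → ℝ)
    (hi : Integrable (fun u => |V u| * ∏ a, ∏ o, (2 + Y u a o ^ 2) ^ n a o) κ) :
    Integrable (fun w => ∫ u, (V u : ℂ) * b3F n (Y u) η w ∂κ) (gpi2 A ι) ∧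
    ∫ w, ∫ u, (V u : ℂ) * b3F n (Y u) η w ∂κ ∂gpi2 A ι =
      (∫ u, (V u : ℂ) * (∏ a, ∏ o, ((Y u a o : ℂ) + η a o * I) ^ n a o) *
        cexp ((∑ a, ∑ o, η a o * Y u a o : ℝ) * I) ∂κ) * cexp (-((∑ a, ∑ o, η a o ^ 2 : ℝ) : ℂ) / 2) := by
  have h := b3_fubini κ hY hV hn η hi
  refine ⟨h.integral_prod_right, ?_⟩
  rw [← integral_integral_swap (f := fun u w => (V u : ℂ) * b3F n (Y u) η w) h, ← integral_mul_const]
  refine integral_congr_ae (ae_of_all _ fun u => ?_)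
  simp only
  rw [integral_const_mul, b3F_integral hn]
  ring

/-- the whitened identity -/
theorem b3_white {X : Type} [MeasurableSpace X] (κ : Measure X) [IsFiniteMeasure κ]
    {Y : X → A → ι → ℝ} (hY : Measurable Y) (hY2 : ∀ a o, Integrable (fun u => Y u a o ^ 2) κ)
    {V : X → ℝ} (hV : Measurable V) (hVi : Integrable V κ) (α : ℝ) (β : A → ι → ℝ)
    (h : ∀ w : A → ι → ℝ,
      ∫ u, V u * Real.exp (∑ a, ∑ o, (w a o * Y u a o - Y u a o ^ 2 / 2)) ∂κ =
        (α + ∑ b, ∑ k, β b k * w b k) * ∫ u, Real.exp (∑ a, ∑ o, (w a o * Y u a o - Y u a o ^ 2 / 2)) ∂κ)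
    (η : A → ι → ℝ) :
    ∫ u, (V u : ℂ) * cexp ((∑ a, ∑ o, η a o * Y u a o : ℝ) * I) ∂κ =
      α * ∫ u, cexp ((∑ a, ∑ o, η a o * Y u a o : ℝ) * I) ∂κ +
      ∑ b, ∑ k, β b k * ∫ u, ((Y u b k : ℂ) + η b k * I) * cexp ((∑ a, ∑ o, η a o * Y u a o : ℝ) * I) ∂κ := by
  have h0 : ∀ a o, (0 : A → ι → ℕ) a o ≤ 1 := fun _ _ => zero_le_one
  have i1 := b3_swap κ hY hV h0 η (by simpa using hVi.abs)
  have i2 := b3_swap κ hY (V := fun _ => 1) measurable_const h0 η (by simp)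
  have i3 := fun b k => b3_swap κ hY (V := fun _ => 1) measurable_const (b3s_le b k) η
    (by simp only [b3s_prod, abs_one, one_mul]; exact (integrable_const (2 : ℝ)).add (hY2 b k))
  have key : ∀ w, ∫ u, (V u : ℂ) * b3F 0 (Y u) η w ∂κ =
      α * ∫ u, ((1 : ℝ) : ℂ) * b3F 0 (Y u) η w ∂κ +
      ∑ b, ∑ k, β b k * ∫ u, ((1 : ℝ) : ℂ) * b3F (b3s b k) (Y u) η w ∂κ := by
    intro w
    have hw := congrArg (fun x : ℝ => (x : ℂ) * cexp ((∑ a, ∑ o, η a o * w a o : ℝ) * I)) (h w)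
    simp only [b3F_eq, b3s_prod, Pi.zero_apply, pow_zero, Finset.prod_const_one, one_mul, ofReal_one,
      integral_const_mul, integral_mul_const, integral_complex_ofReal, ← mul_assoc]
    have e1 : ∀ u, (V u : ℂ) * (Real.exp (∑ a, ∑ o, (w a o * Y u a o - Y u a o ^ 2 / 2)) : ℝ) =
        ((V u * Real.exp (∑ a, ∑ o, (w a o * Y u a o - Y u a o ^ 2 / 2)) : ℝ) : ℂ) := fun u =>
      (ofReal_mul _ _).symm
    simp only [e1, integral_complex_ofReal]
    rw [hw]
    simp only [← Finset.sum_mul]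
    push_cast
    ring
  have e := congrArg (fun f => ∫ w, f w ∂gpi2 A ι) (funext key)
  simp only at e
  rw [integral_add (i2.1.const_mul _) (integrable_finsetSum _ fun b _ =>
    integrable_finsetSum _ fun k _ => (i3 b k).1.const_mul _),
    integral_finsetSum _ fun b _ =>
      integrable_finsetSum _ fun k _ => (i3 b k).1.const_mul _, integral_const_mul, i1.2, i2.2] at e
  have e3 : ∀ b, ∫ w, ∑ k, β b k * ∫ u, ((1 : ℝ) : ℂ) * b3F (b3s b k) (Y u) η w ∂κ ∂gpi2 A ι =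
      ∑ k, β b k * ((∫ u, ((Y u b k : ℂ) + η b k * I) * cexp ((∑ a, ∑ o, η a o * Y u a o : ℝ) * I) ∂κ) *
        cexp (-((∑ a, ∑ o, η a o ^ 2 : ℝ) : ℂ) / 2)) := by
    intro b
    rw [integral_finsetSum _ fun k _ => (i3 b k).1.const_mul _]
    refine Finset.sum_congr rfl fun k _ => ?_
    rw [integral_const_mul, (i3 b k).2]
    simp only [b3s_prod, ofReal_one, one_mul]
  rw [Finset.sum_congr rfl fun b _ => e3 b] at e
  simp only [Pi.zero_apply, pow_zero, Finset.prod_const_one, one_mul, mul_one, ofReal_one] at e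
  have hne : cexp (-((∑ a, ∑ o, η a o ^ 2 : ℝ) : ℂ) / 2) ≠ 0 := Complex.exp_ne_zero _
  refine mul_right_cancel₀ hne (e.trans ?_)
  rw [add_mul, mul_assoc, Finset.sum_mul]
  congr 1
  refine Finset.sum_congr rfl fun b _ => ?_
  rw [Finset.sum_mul]
  exact Finset.sum_congr rfl fun k _ => (mul_assoc _ _ _).symm

/-- characteristic function of the standard Gaussian -/
theorem b3_char (η : A → ι → ℝ) : ∫ w, cexp ((∑ a, ∑ o, η a o * w a o : ℝ) * I) ∂gpi2 A ι =
    cexp (-((∑ a, ∑ o, η a o ^ 2 : ℝ) : ℂ) / 2) := by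
  have := b3F_integral (n := 0) (fun _ _ => zero_le_one) 0 η
  simpa [b3F_eq] using this

end Multi

end Crest.Agent.R166
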