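import Crest.Agent.R166.B3.Ode
import Crest.Agent.R166.B3.Alg

/-!
# Row 166, block B3: posterior means on a star are affine (Pexider equation)
-/

set_option autoImplicit false

open MeasureTheory ProbabilityTheory Filter Topology Complex
open scoped ENNReal NNReal BigOperators Matrix

noncomputable section

namespace Crest.Agent.R166

variable {q r : ℕ}

/-- the values on the `i`-th edge -/
def b3prj (i : Fin (q + 1)) (x : Fin r → SI q → ℝ) : Fin r → Fin 2 → ℝ :=
  fun a => ![x a none, x a (some i)]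

/-- reversal of the values on an edge -/
def b3swp (y : Fin r → Fin 2 → ℝ) : Fin r → Fin 2 → ℝ := fun a => ![y a 1, y a 0]

theorem b3prj_meas (i : Fin (q + 1)) : Measurable (b3prj (r := r) i) := by
  refine measurable_pi_lambda _ fun a => measurable_pi_lambda _ fun o => ?_
  fin_cases o <;> simp [b3prj] <;> fun_prop

theorem b3swp_meas : Measurable (b3swp (r := r)) := by
  refine measurable_pi_lambda _ fun a => measurable_pi_lambda _ fun o => ?_
  fin_cases o <;> simp [b3swp] <;> fun_prop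

theorem b3_third (hq : 2 ≤ q) (i j : Fin (q + 1)) : ∃ k, k ≠ i ∧ k ≠ j := by
  by_contra h
  push Not at h
  have h0 := h ⟨0, by omega⟩
  have h1 := h ⟨1, by omega⟩
  have h2 := h ⟨2, by omega⟩
  simp only [ne_eq, Fin.ext_iff] at h0 h1 h2
  omega

theorem b3_sum3 {M N : Type} [AddCommMonoid M] [Zero N] (ν : Fin (q + 1) → N → M) (h0 : ∀ l, ν l 0 = 0)
    {i j k : Fin (q + 1)} (hij : i ≠ j) (hik : i ≠ k) (hjk : j ≠ k) (p p' p'' : N) :
    ∑ l, ν l (if l = i then p else if l = j then p' else if l = k then p'' else 0) =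
      ν i p + ν j p' + ν k p'' := by
  have : ∀ l, ν l (if l = i then p else if l = j then p' else if l = k then p'' else 0) =
      (if l = i then ν l p else 0) + (if l = j then ν l p' else 0) + (if l = k then ν l p'' else 0) := by
    intro l
    by_cases h1 : l = i
    · subst h1; simp [hij, hik]
    · by_cases h2 : l = j
      · subst h2; simp [h1, hjk]
      · by_cases h3 : l = k
        · subst h3; simp [h1, h2]
        · simp [h1, h2, h3, h0]
  simp only [this, Finset.sum_add_distrib, Finset.sum_ite_eq', Finset.mem_univ, if_true]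

section Star
variable (hq : 2 ≤ q) {c : ℝ} {F : (Fin r → SI q → ℝ) → Fin r → SI q → ℝ}
  {G : Fin (q + 1) → (Fin r → Fin 2 → ℝ) → Fin r → Fin 2 → ℝ}
  (hFG : ∀ i x, (∀ a, c * x a none + ∑ j, x a (some j) = 0) →
    ∀ a, F x a none = G i (b3prj i x) a 0 ∧ F x a (some i) = G i (b3prj i x) a 1)
include hq hFG

theorem b3_near (i : Fin (q + 1)) (y y' : Fin r → Fin 2 → ℝ) (h : ∀ a, y a 0 = y' a 0) (a : Fin r) :
    G i y a 0 = G i y' a 0 := by
  obtain ⟨j, hji, -⟩ := b3_third hq i i
  obtain ⟨k, hki, hkj⟩ := b3_third hq i j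
  have key : ∀ y : Fin r → Fin 2 → ℝ, G i y a 0 = G j (fun b => ![y b 0, 0]) a 0 := by
    intro y
    set x : Fin r → SI q → ℝ := fun b o => o.elim (y b 0) fun l =>
      if l = i then y b 1 else if l = j then 0 else if l = k then -(c * y b 0) - y b 1 else 0 with hx
    have he : ∀ b, c * x b none + ∑ l, x b (some l) = 0 := by
      intro b
      have := b3_sum3 (fun _ (t : ℝ) => t) (fun _ => rfl) hji.symm hki.symm hkj.symm (y b 1) 0
        (-(c * y b 0) - y b 1)
      simp only [hx, Option.elim_none, Option.elim_some]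
      rw [this]; ring
    have e1 : b3prj i x = y := by
      funext b o; fin_cases o <;> simp [b3prj, hx]
    have e2 : b3prj j x = fun b => ![y b 0, 0] := by
      funext b o; fin_cases o <;> simp [b3prj, hx, hji]
    rw [← e2, ← (hFG j x he a).1, (hFG i x he a).1, e1]
  rw [key y, key y']
  simp only [h]

theorem b3_far (hF : ∀ x a, c * F x a none + ∑ j, F x a (some j) = 0)
    (hfar : ∀ i y y', (∀ a, y a 1 = y' a 1) → ∀ a, G i y a 1 = G i y' a 1)
    (hcont : ∀ i a, Continuous fun y => G i y a 1) :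
    ∃ B : Matrix (Fin r) (Fin r) ℝ, ∀ i, ∃ α : Fin r → ℝ, ∀ y a, G i y a 1 = α a + ∑ b, B a b * y b 1 := by
  set μ : Fin (q + 1) → (Fin r → ℝ) → Fin r → ℝ := fun i p a => G i (fun b => ![0, p b]) a 1 with hμ
  have h1 : ∀ t : Fin (q + 1) → Fin r → ℝ, ∑ l, t l = 0 → ∑ l, μ l (t l) = fun a => -(c * G 0 0 a 0) := by
    intro t ht
    funext a
    set x : Fin r → SI q → ℝ := fun b o => o.elim 0 fun l => t l b with hx
    have he : ∀ b, c * x b none + ∑ l, x b (some l) = 0 := by
      intro b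
      have := congrFun ht b
      simpa [hx, Finset.sum_apply] using this
    have e0 : F x a none = G 0 0 a 0 := by
      rw [(hFG 0 x he a).1]
      exact b3_near hq hFG 0 _ _ (fun b => by simp [b3prj, hx]) a
    have e1 : ∀ l, F x a (some l) = μ l (t l) a := fun l => (hFG l x he a).2
    have := hF x a
    rw [e0] at this
    simp only [e1] at this
    rw [Finset.sum_apply]
    linarith
  set ν : Fin (q + 1) → (Fin r → ℝ) → Fin r → ℝ := fun i p => μ i p - μ i 0 with hν
  have hν0 : ∀ l, ν l 0 = 0 := fun l => sub_self _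
  have h3 : ∀ {i j k : Fin (q + 1)}, i ≠ j → i ≠ k → j ≠ k → ∀ p p' p'' : Fin r → ℝ, p + p' + p'' = 0 →
      ν i p + ν j p' + ν k p'' = 0 := by
    intro i j k hij hik hjk p p' p'' hp
    rw [← b3_sum3 ν hν0 hij hik hjk]
    simp only [hν, Finset.sum_sub_distrib]
    rw [h1 _ ((b3_sum3 (fun _ t => t) (fun _ => rfl) hij hik hjk p p' p'').trans hp),
      h1 (fun _ => 0) (by simp), sub_self]
  have h4 : ∀ i j p, ν i p = ν j p := by
    intro i j p
    by_cases hij : i = j
    · rw [hij]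
    · obtain ⟨k, hki, hkj⟩ := b3_third hq i j
      have a1 := h3 hij hki.symm hkj.symm p 0 (-p) (by simp)
      have a2 := h3 hij hki.symm hkj.symm 0 p (-p) (by simp)
      rw [hν0] at a1 a2
      rw [add_zero] at a1
      rw [zero_add] at a2
      exact add_right_cancel (a1.trans a2.symm)
  have h5 : ∀ p p', ν 0 (p + p') = ν 0 p + ν 0 p' := by
    intro p p'
    obtain ⟨j, hj, -⟩ := b3_third hq (0 : Fin (q + 1)) 0
    obtain ⟨k, hk0, hkj⟩ := b3_third hq 0 j
    have a1 := h3 hj.symm hk0.symm hkj.symm p p' (-(p + p')) (by simp)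
    have a2 := h3 hj.symm hk0.symm hkj.symm (p + p') 0 (-(p + p')) (by simp)
    rw [hν0, add_zero] at a2
    rw [h4 j 0] at a1
    exact add_right_cancel (a2.trans a1.symm)
  have hc : Continuous (AddMonoidHom.mk' (ν 0) h5) := by
    refine Continuous.sub (continuous_pi fun a => (hcont 0 a).comp ?_) continuous_const
    refine continuous_pi fun b => continuous_pi fun o => ?_
    fin_cases o <;> simp <;> fun_prop
  set L := (AddMonoidHom.mk' (ν 0) h5).toRealLinearMap hc with hL
  refine ⟨LinearMap.toMatrix' L.toLinearMap, fun i => ⟨μ i 0, fun y a => ?_⟩⟩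
  have e1 : G i y a 1 = μ i (fun b => y b 1) a := hfar i _ _ (fun b => by simp) a
  have e2 : ν 0 (fun b => y b 1) = LinearMap.toMatrix' L.toLinearMap *ᵥ fun b => y b 1 := by
    rw [← Matrix.toLin'_apply, Matrix.toLin'_toMatrix']
    rfl
  have e3 := congrFun (h4 i 0 fun b => y b 1) a
  rw [e2] at e3
  simp only [hν, Pi.sub_apply, Matrix.mulVec, dotProduct] at e3
  rw [e1, ← e3]; ring

end Star

section PM
variable {ι : Type} [Fintype ι] (κ : Measure (Fin r → ι → ℝ)) [IsProbabilityMeasure κ]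
  (h2 : ∀ a o, Integrable (fun u : Fin r → ι → ℝ => u a o ^ 2) κ) {Q : (ι → ℝ) → ℝ} (hQ : Continuous Q)
  (hQ0 : ∀ x, 0 ≤ Q x) {γ : ℝ} (hγ : 0 < γ)
include hQ0 hγ

omit [Fintype ι] in
theorem b3_w_le (x u : Fin r → ι → ℝ) : Real.exp (-(γ * ∑ b, Q (x b - u b)) / 2) ≤ 1 := by
  rw [Real.exp_le_one_iff]
  have : 0 ≤ γ * ∑ b, Q (x b - u b) := mul_nonneg hγ.le (Finset.sum_nonneg fun b _ => hQ0 _)
  linarith

omit [Fintype ι] in
theorem b3_w_bound (x u : Fin r → ι → ℝ) (t : ℝ) :
    ‖t * Real.exp (-(γ * ∑ b, Q (x b - u b)) / 2)‖ ≤ |t| := by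
  rw [norm_mul, Real.norm_eq_abs, Real.norm_of_nonneg (Real.exp_pos _).le]
  exact mul_le_of_le_one_right (abs_nonneg _) (b3_w_le hQ0 hγ x u)

include h2 hQ

theorem b3_pm_cont (a : Fin r) (o : ι) : Continuous fun x => pmean κ Q γ x a o := by
  unfold pmean
  refine Continuous.div ?_ ?_ fun x => (b3_den_pos κ hQ hQ0 hγ x).ne'
  · refine continuous_of_dominated (bound := fun u => |u a o|)
      (fun x => Continuous.aestronglyMeasurable (by fun_prop))
      (fun x => ae_of_all _ fun u => b3_w_bound hQ0 hγ x u _) (b3_int1 h2 a o).abs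
      (ae_of_all _ fun u => by fun_prop)
  · refine continuous_of_dominated (bound := fun _ => 1)
      (fun x => Continuous.aestronglyMeasurable (by fun_prop))
      (fun x => ae_of_all _ fun u => ?_) (integrable_const _) (ae_of_all _ fun u => by fun_prop)
    rw [Real.norm_of_nonneg (Real.exp_pos _).le]
    exact b3_w_le hQ0 hγ x u

theorem b3_w_int (x : Fin r → ι → ℝ) (a : Fin r) (o : ι) :
    Integrable (fun u : Fin r → ι → ℝ => u a o * Real.exp (-(γ * ∑ b, Q (x b - u b)) / 2)) κ :=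
  (b3_int1 h2 a o).abs.mono' (Continuous.aestronglyMeasurable (by fun_prop))
    (ae_of_all _ fun u => b3_w_bound hQ0 hγ x u _)

end PM

theorem b3_pm_eig (κ : Measure (Fin r → SI q → ℝ)) [IsProbabilityMeasure κ]
    (h2 : ∀ a o, Integrable (fun u : Fin r → SI q → ℝ => u a o ^ 2) κ) {Q : (SI q → ℝ) → ℝ}
    (hQ : Continuous Q) (hQ0 : ∀ x, 0 ≤ Q x) {γ : ℝ} (hγ : 0 < γ) {c : ℝ}
    (he : ∀ᵐ u ∂κ, ∀ a, c * u a none + ∑ j, u a (some j) = 0) (x : Fin r → SI q → ℝ) (a : Fin r) :
    c * pmean κ Q γ x a none + ∑ j, pmean κ Q γ x a (some j) = 0 := by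
  unfold pmean
  rw [← mul_div_assoc, ← Finset.sum_div, ← add_div, ← integral_const_mul,
    ← integral_finsetSum _ fun j _ => b3_w_int κ h2 hQ hQ0 hγ x a (some j),
    ← integral_add ((b3_w_int κ h2 hQ hQ0 hγ x a none).const_mul _)
      (integrable_finsetSum _ fun j _ => b3_w_int κ h2 hQ hQ0 hγ x a (some j)), div_eq_zero_iff]
  left
  rw [← integral_zero _ ℝ (μ := κ)]
  refine integral_congr_ae (he.mono fun u hu => ?_)
  simp only
  rw [← mul_assoc, ← Finset.sum_mul, ← add_mul, hu a, zero_mul]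

theorem b3_pm_map {ι ι' : Type} [Fintype ι] [Fintype ι'] (κ : Measure (Fin r → ι → ℝ))
    {h : (Fin r → ι → ℝ) → Fin r → ι' → ℝ} (hh : Measurable h) {Q : (ι → ℝ) → ℝ} {Q' : (ι' → ℝ) → ℝ}
    (hQ' : Continuous Q') (γ : ℝ) (x : Fin r → ι → ℝ) (x' : Fin r → ι' → ℝ)
    (hQQ : ∀ u b, Q' (x' b - h u b) = Q (x b - u b)) (a : Fin r) (o : ι) (o' : ι')
    (ho : ∀ u, h u a o' = u a o) : pmean (κ.map h) Q' γ x' a o' = pmean κ Q γ x a o := by
  unfold pmean
  rw [integral_map hh.aemeasurable (Continuous.aestronglyMeasurable (by fun_prop)),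
    integral_map hh.aemeasurable (Continuous.aestronglyMeasurable (by fun_prop))]
  simp only [hQQ, ho]

theorem b3_pm_prj (κ : Measure (Fin r → SI q → ℝ)) (s E : ℝ) (e : SEnv q) (i : Fin (q + 1)) (γ : ℝ)
    (x : Fin r → SI q → ℝ) (a : Fin r) :
    pmean κ (QE0 s E e i) γ x a none =
      pmean (κ.map (b3prj i)) (b3Q (mB s E (nearV e i)) (mB s E (e.2 i))) γ (b3prj i x) a 0 ∧
    pmean κ (QE0 s E e i) γ x a (some i) =
      pmean (κ.map (b3prj i)) (b3Q (mB s E (nearV e i)) (mB s E (e.2 i))) γ (b3prj i x) a 1 := by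
  constructor <;>
  exact (b3_pm_map κ (b3prj_meas i) (b3Q_cont _ _) γ x _ (fun u b => by simp [b3Q, QE0, b3prj]) a _ _
    fun u => by simp [b3prj]).symm

theorem b3_pm_swp (κ : Measure (Fin r → Fin 2 → ℝ)) (m' m : ℂ) (γ : ℝ) (y : Fin r → Fin 2 → ℝ) (a : Fin r) :
    pmean (κ.map b3swp) (b3Q m m') γ (b3swp y) a 0 = pmean κ (b3Q m' m) γ y a 1 ∧
    pmean (κ.map b3swp) (b3Q m m') γ (b3swp y) a 1 = pmean κ (b3Q m' m) γ y a 0 := by
  constructor <;>
  exact b3_pm_map κ b3swp_meas (b3Q_cont _ _) γ y _ (fun u b => by simp [b3Q, b3swp, add_comm]) a _ _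
    fun u => by simp [b3swp]

theorem b3_QS_cont (s E : ℝ) (e : SEnv q) : Continuous (QS0 s E e) := by
  unfold QS0 qf; fun_prop

end Crest.Agent.R166
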