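import Crest.Agent.R166.Iface
import Crest.Agent.R166.B3.Pex
import Crest.Agent.R166.B3.Dis
import Crest.Agent.R166.B3.Erg

/-!
# Row 166, block B3: the equality case (Gaussian wave)
-/

set_option autoImplicit false

open MeasureTheory ProbabilityTheory Filter Topology Complex
open scoped ENNReal NNReal BigOperators Matrix

noncomputable section

namespace Crest.Agent.R166

variable {q r : ℕ}

theorem b3_G_meas {X : Type} [MeasurableSpace X] {m' m : X → ℂ} (hm' : Measurable m') (hm : Measurable m)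
    (i j : Fin 2) : Measurable fun x => imM (GamE (m' x) (m x)) i j := by
  fin_cases i <;> fin_cases j <;> simp only [imM, GamE, Matrix.map_apply, Matrix.of_apply, Fin.zero_eta,
    Fin.mk_one, Matrix.cons_val', Matrix.cons_val_zero, Matrix.cons_val_one, Matrix.cons_val_fin_one] <;>
    fun_prop

theorem b3_wave_meas {m : Env q → ℂ} (hm : Measurable m) (c : ℝ) :
    Measurable fun p : EEnv q × (Fin r → Fin 2 → ℝ) =>
      ((p.1, fun a => c • (chol2 (imM (GamE (m p.1.1) (m p.1.2))) *ᵥ p.2 a)) : EState q r) := by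
  have hG := fun i j => b3_G_meas (X := EEnv q × (Fin r → Fin 2 → ℝ)) (m' := fun p => m p.1.1)
    (m := fun p => m p.1.2) (by fun_prop) (by fun_prop) i j
  have h00 := hG 0 0
  have h10 := hG 1 0
  have h11 := hG 1 1
  refine measurable_fst.prodMk (measurable_pi_lambda _ fun a => measurable_pi_lambda _ fun o => ?_)
  fin_cases o <;> simp only [chol2, Matrix.mulVec, dotProduct, Fin.sum_univ_two, Pi.smul_apply, smul_eq_mul,
    Matrix.of_apply, Fin.zero_eta, Fin.mk_one, Matrix.cons_val', Matrix.cons_val_zero, Matrix.cons_val_one,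
    Matrix.cons_val_fin_one] <;> fun_prop

theorem b3_rotS_meas (k : Fin (q + 1)) : Measurable (rotS (r := r) k) := by
  unfold rotS; fun_prop

theorem b3_edge_rot (i : Fin (q + 1)) (x : SState q r) : edgeOf 0 (rotS i x) = edgeOf i x := by
  simp [edgeOf, rotS, nearV]

/-- left inverse of `b3eps i` -/
def b3inv' (i : Fin (q + 1)) (ε : EEnv q) : SEnv q := ((b3inv ε).1, fun k => (b3inv ε).2 (k - i))

theorem b3inv'_meas (i : Fin (q + 1)) : Measurable (b3inv' i : EEnv q → SEnv q) := by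
  have : Measurable fun e : SEnv q => ((e.1, fun k => e.2 (k - i)) : SEnv q) := by fun_prop
  exact this.comp b3inv_meas

theorem b3inv'_eps (i : Fin (q + 1)) (e : SEnv q) : b3inv' i (b3eps i e) = e := by
  have : b3eps i e = b3eps 0 (e.1, fun k => e.2 (i + k)) := by simp [b3eps, nearV]
  unfold b3inv'
  rw [this, b3inv_eps]
  simp

theorem stB3 (hEnv : StEnv) : StB3 := by
  intro q r π _ s E P _ hq hT hL hPM
  obtain ⟨γ, hγ, hpm⟩ := hPM
  have heps : ∀ i, MeasurePreserving (b3eps i) (starLaw q π) (edgeLaw q π) := (hEnv q π).2.2.1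
  have : IsProbabilityMeasure (envLaw q π) := by unfold envLaw; infer_instance
  have : IsProbabilityMeasure (edgeLaw q π) := by unfold edgeLaw; infer_instance
  have : IsProbabilityMeasure (starLaw q π) := by unfold starLaw; infer_instance
  have hswap : MeasurePreserving Prod.swap (edgeLaw q π) (edgeLaw q π) := Measure.measurePreserving_swap
  have hinv : MeasurePreserving b3inv (edgeLaw q π) (starLaw q π) := by
    refine ⟨b3inv_meas, ?_⟩
    rw [← (heps 0).map_eq, Measure.map_map b3inv_meas (heps 0).measurable,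
      show b3inv ∘ b3eps 0 = (id : SEnv q → SEnv q) from funext b3inv_eps, Measure.map_id]
  have push : ∀ {p : EEnv q → Prop}, (∀ᵐ e ∂starLaw q π, p (b3eps 0 e)) → ∀ᵐ ε ∂edgeLaw q π, p ε :=
    fun h => (hinv.quasiMeasurePreserving.ae h).mono fun ε h => by rwa [b3eps_inv] at h
  have pull : ∀ {p : EEnv q → Prop}, (∀ᵐ ε ∂edgeLaw q π, p ε) → ∀ᵐ e ∂starLaw q π, ∀ i, p (b3eps i e) :=
    fun h => ae_all_iff.2 fun i => (heps i).quasiMeasurePreserving.ae h
  have sw : ∀ {p : EEnv q → Prop}, (∀ᵐ ε ∂edgeLaw q π, p ε) → ∀ᵐ ε ∂edgeLaw q π, p ε.swap :=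
    fun h => hswap.quasiMeasurePreserving.ae h
  have hem : ∀ i, Measurable (edgeOf (q := q) (r := r) i) := fun i =>
    ((heps i).measurable.comp measurable_fst).prodMk ((b3prj_meas i).comp measurable_snd)
  set Q := P.map (edgeOf 0) with hQ
  have : IsProbabilityMeasure Q := Measure.isProbabilityMeasure_map (hem 0).aemeasurable
  have hQi : ∀ i, P.map (edgeOf i) = Q := by
    intro i
    rw [hQ]
    conv_rhs => rw [← hL.rot i]
    rw [Measure.map_map (hem 0) (b3_rotS_meas i)]
    congr 1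
    exact funext fun x => (b3_edge_rot i x).symm
  have hPf : P.fst = starLaw q π := hL.env
  have hQf : Q.fst = edgeLaw q π := by
    rw [hQ, Measure.fst, Measure.map_map measurable_fst (hem 0), ← (heps 0).map_eq, ← hPf, Measure.fst,
      Measure.map_map (heps 0).measurable measurable_fst]
    rfl
  set κ := P.condKernel with hκ
  set K := Q.condKernel with hK
  have D1 : ∀ᵐ e ∂starLaw q π, ∀ i, (κ e).map (b3prj i) = K (b3eps i e) := by
    rw [ae_all_iff, ← hPf]
    exact fun i => b3_cond_map P Q (heps i).measurable (b3inv'_meas i) (b3inv'_eps i) (b3prj_meas i) (hQi i)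
  have D2 : ∀ᵐ ε ∂edgeLaw q π, (K ε).map b3swp = K ε.swap := by
    rw [← hQf]
    exact b3_cond_map Q Q measurable_swap measurable_swap Prod.swap_swap b3swp_meas hL.swap
  have hpos : ∀ᵐ ε ∂edgeLaw q π, 0 < (mB s E ε.1).im ∧ 0 < (mB s E ε.2).im :=
    (Measure.quasiMeasurePreserving_fst.ae hT.pos).and (Measure.quasiMeasurePreserving_snd.ae hT.pos)
  have hrec : ∀ᵐ ε ∂edgeLaw q π, mB s E ε.1 = Psi s E (ε.1 []) fun j => mB s E (child ε.1 j) :=
    Measure.quasiMeasurePreserving_fst.ae hT.recur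
  have L2s : ∀ᵐ e ∂starLaw q π, ∀ a o, Integrable (fun u : Fin r → SI q → ℝ => u a o ^ 2) (κ e) := by
    rw [← hPf]
    exact ae_all_iff.2 fun a => ae_all_iff.2 fun o => (hL.sq a o).condKernel_ae
  have L2e : ∀ᵐ ε ∂edgeLaw q π, ∀ a o, Integrable (fun y : Fin r → Fin 2 → ℝ => y a o ^ 2) (K ε) := by
    refine push ?_
    filter_upwards [D1, L2s] with e h1 h2 a o
    rw [← h1 0, integrable_map_measure (Measurable.aestronglyMeasurable (by fun_prop))
      (b3prj_meas 0).aemeasurable]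
    fin_cases o
    · exact h2 a none
    · exact h2 a (some 0)
  have heig : ∀ᵐ e ∂starLaw q π, ∀ᵐ u ∂κ e, ∀ a, EigS s E e (u a) := by
    have := hL.eig
    rw [← P.disintegrate P.condKernel, hPf] at this
    exact Measure.ae_ae_of_ae_compProd this
  have hint1 : ∀ a, Integrable (fun x : SState q r => x.2 a none) P := fun a => by
    refine ((integrable_const (1 : ℝ)).add (hL.sq a none)).mono'
      (Measurable.aestronglyMeasurable (by fun_prop)) (ae_of_all _ fun u => ?_)
    simp only [Pi.add_apply, Real.norm_eq_abs]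
    nlinarith [sq_abs (u.2 a none), sq_nonneg (|u.2 a none| - 1)]
  have hint2 : ∀ a b, Integrable (fun x : SState q r => x.2 a none * x.2 b none) P := fun a b => by
    refine ((hL.sq a none).add (hL.sq b none)).mono'
      (Measurable.aestronglyMeasurable (by fun_prop)) (ae_of_all _ fun u => ?_)
    simp only [Pi.add_apply, Real.norm_eq_abs, abs_mul]
    nlinarith [sq_abs (u.2 a none), sq_abs (u.2 b none), sq_nonneg (|u.2 a none| - |u.2 b none|),
      abs_nonneg (u.2 a none), abs_nonneg (u.2 b none)]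
  have means : ∀ᵐ e ∂starLaw q π, ∀ a, ∫ u, u a none ∂κ e = 0 := by
    rw [ae_all_iff, ← hPf]
    intro a
    refine b3_ae_zero P.fst (hint1 a).integral_condKernel fun φ => ?_
    have hi : Integrable (fun x : SState q r => φ x.1 * x.2 a none) P :=
      (hint1 a).bdd_mul (φ.continuous.measurable.comp measurable_fst).aestronglyMeasurable
        (ae_of_all _ fun x => φ.norm_coe_le_norm x.1)
    have := Measure.integral_condKernel hi
    simp only [integral_const_mul] at this
    rw [this]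
    exact hL.mean φ.toContinuousMap a
  have mean0 : ∀ᵐ ε ∂edgeLaw q π, ∀ a, ∫ y, y a 0 ∂K ε = 0 := by
    refine push ?_
    filter_upwards [D1, means] with e h1 h2 a
    rw [← h1 0, integral_map (b3prj_meas 0).aemeasurable (Measurable.aestronglyMeasurable (by fun_prop))]
    exact h2 a
  have meane : ∀ᵐ ε ∂edgeLaw q π, ∀ a o, ∫ y, y a o ∂K ε = 0 := by
    filter_upwards [mean0, sw mean0, D2] with ε h1 h2 h3 a o
    fin_cases o
    · exact h1 a
    · have := h2 a
      rw [← h3, integral_map b3swp_meas.aemeasurable (Measurable.aestronglyMeasurable (by fun_prop))]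
        at this
      exact this
  set G : EEnv q → (Fin r → Fin 2 → ℝ) → Fin r → Fin 2 → ℝ :=
    fun ε y => pmean (K ε) (b3Q (mB s E ε.1) (mB s E ε.2)) γ y with hG
  have hFG : ∀ᵐ e ∂starLaw q π, ∀ i (x : Fin r → SI q → ℝ),
      (∀ a, (s * (e.1 : ℝ) - E) * x a none + ∑ j, x a (some j) = 0) →
      ∀ a, pmean (κ e) (QS0 s E e) γ x a none = G (b3eps i e) (b3prj i x) a 0 ∧
        pmean (κ e) (QS0 s E e) γ x a (some i) = G (b3eps i e) (b3prj i x) a 1 := by
    filter_upwards [hpm, D1] with e h1 h2 i x hx a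
    have h3 := b3_pm_prj (κ e) s E e i γ x a
    rw [h2 i] at h3
    exact ⟨(h1 i x hx a).1.trans h3.1, (h1 i x hx a).2.trans h3.2⟩
  have near : ∀ᵐ ε ∂edgeLaw q π, ∀ y y', (∀ a, y a 0 = y' a 0) → ∀ a, G ε y a 0 = G ε y' a 0 := by
    refine push ?_
    filter_upwards [hFG] with e h1
    exact b3_near hq (G := fun i => G (b3eps i e)) h1 0
  have swG : ∀ᵐ ε ∂edgeLaw q π, ∀ y a, G ε.swap (b3swp y) a 0 = G ε y a 1 ∧
      G ε.swap (b3swp y) a 1 = G ε y a 0 := by
    filter_upwards [D2] with ε h1 y a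
    simp only [hG]
    rw [← h1]
    exact b3_pm_swp (K ε) _ _ γ y a
  have far : ∀ᵐ ε ∂edgeLaw q π, ∀ y y', (∀ a, y a 1 = y' a 1) → ∀ a, G ε y a 1 = G ε y' a 1 := by
    filter_upwards [sw near, swG] with ε h1 h2 y y' h a
    rw [← (h2 y a).1, ← (h2 y' a).1]
    exact h1 _ _ (fun b => h b) a
  have affs : ∀ᵐ e ∂starLaw q π, ∃ B : Matrix (Fin r) (Fin r) ℝ, ∀ i, ∃ α : Fin r → ℝ, ∀ y a,
      G (b3eps i e) y a 1 = α a + ∑ b, B a b * y b 1 := by
    filter_upwards [hFG, pull far, pull hpos, pull L2e, L2s, heig] with e h1 h2 h3 h4 h5 h6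
    refine b3_far hq (G := fun i => G (b3eps i e)) h1 (fun x a => ?_) h2 fun i a => ?_
    · exact b3_pm_eig (κ e) h5 (b3_QS_cont s E e)
        (fun x => Finset.sum_nonneg fun j _ => b3_qf_nonneg (h3 j).2 _ _) hγ h6 x a
    · exact b3_pm_cont (K _) (h4 i) (b3Q_cont _ _) (b3Q_nonneg (h3 i).1 (h3 i).2) hγ a 1
  have afff : ∀ᵐ ε ∂edgeLaw q π, ∃ (B : Matrix (Fin r) (Fin r) ℝ) (α : Fin r → ℝ), ∀ y a,
      G ε y a 1 = α a + ∑ b, B a b * y b 1 := by
    refine push ?_
    filter_upwards [affs] with e ⟨B, hB⟩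
    exact ⟨B, hB 0⟩
  set Γ : EEnv q → Matrix (Fin 2) (Fin 2) ℝ := fun ε => imM (GamE (mB s E ε.1) (mB s E ε.2)) with hΓ
  have gauss : ∀ᵐ ε ∂edgeLaw q π, ∀ (B : Matrix (Fin r) (Fin r) ℝ) (α : Fin r → ℝ),
      (∀ y a, G ε y a 1 = α a + ∑ b, B a b * y b 1) →
      ∃ D : Fin 2 → Matrix (Fin r) (Fin r) ℝ, D 1 = b3h γ B ∧
        (∀ a b o o', ∫ y, y a o * y b o' ∂K ε = D o a b * Γ ε o o') ∧
        ∀ ξ, b3phi (K ε) ξ =
          cexp (-((∑ a, ∑ o, ξ a o * ∑ b, ∑ o', (∫ u, u a o * u b o' ∂K ε) * ξ b o' : ℝ) : ℂ) / 2) := by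
    filter_upwards [sw afff, swG, hpos, L2e, meane] with ε ⟨A, α₀, h1⟩ h2 h3 h4 h5 B α hB
    have := b3_gauss (K ε) h4 h5 (Γ ε) _ _ (b3_G_ne h3.1 h3.2) (b3_chol h3.1 h3.2) (b3_GP h3.1 h3.2)
      (b3P_symm _ _) (b3Q_eq _ _) hγ (fun a => ![α₀ a, α a]) ![A, B] fun x a o => by
        fin_cases o
        · exact (h2 x a).2.symm.trans (h1 _ a)
        · exact hB x a
    exact ⟨fun o => b3h γ (![A, B] o), rfl, this⟩
  set N : Fin r → Fin r → EEnv q → ℝ := fun a b ε => (∫ y, y a 0 * y b 0 ∂K ε) / Γ ε 0 0 with hN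
  have hNm : ∀ a b, Measurable (N a b) := fun a b =>
    (StronglyMeasurable.integral_kernel (κ := K) (f := fun y : Fin r → Fin 2 → ℝ => y a 0 * y b 0)
      (Measurable.stronglyMeasurable (by fun_prop))).measurable.div
      (b3_G_meas (hT.meas.comp measurable_fst) (hT.meas.comp measurable_snd) 0 0)
  have Nfar : ∀ᵐ ε ∂edgeLaw q π, ∀ a b, N a b ε.swap = (∫ y, y a 1 * y b 1 ∂K ε) / Γ ε 1 1 := by
    filter_upwards [D2] with ε h1 a b
    simp only [hN, hΓ]
    rw [← h1, integral_map b3swp_meas.aemeasurable (Measurable.aestronglyMeasurable (by fun_prop)),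
      b3_G_swap]
    rfl
  have hGP : ∀ᵐ e ∂starLaw q π, ∀ i, Γ (b3eps i e) 0 0 = (Psi s E e.1 fun k => mB s E (e.2 k)).im := by
    filter_upwards [pull hrec, pull hpos] with e h1 h2 i
    have h3 : mB s E (nearV e i) = Psi s E e.1 fun j : Fin q => mB s E (e.2 (i + j.succ)) := h1 i
    have h4 : 0 < (mB s E (nearV e i)).im := (h2 i).1
    simp only [hΓ, b3eps]
    rw [h3] at h4 ⊢
    exact b3_G_Psi s E e.1 (fun k => mB s E (e.2 k)) i h4
  have inv1 : ∀ᵐ e ∂starLaw q π, ∀ i a b, N a b (b3eps i e) =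
      (∫ u, u a none * u b none ∂κ e) / (Psi s E e.1 fun k => mB s E (e.2 k)).im := by
    filter_upwards [hGP, D1] with e h1 h2 i a b
    simp only [hN]
    rw [h1 i, ← h2 i, integral_map (b3prj_meas i).aemeasurable
      (Measurable.aestronglyMeasurable (by fun_prop))]
    rfl
  have inv2 : ∀ᵐ e ∂starLaw q π, ∀ i a b, N a b (b3eps i e).swap = N a b (b3eps 0 e).swap := by
    filter_upwards [affs, pull gauss, pull Nfar, pull hpos] with e ⟨B, hB⟩ h1 h2 h3
    have key : ∀ i a b, N a b (b3eps i e).swap = b3h γ B a b := by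
      intro i a b
      obtain ⟨α, hα⟩ := hB i
      obtain ⟨D, hD, h4, -⟩ := h1 i B α hα
      rw [h2 i, h4, hD, mul_div_cancel_right₀ _ (b3_G_ne (h3 i).1 (h3 i).2 1)]
    intro i a b
    rw [key, key]
  set j₀ : Fin q := ⟨0, by omega⟩
  have hTm : MeasurePreserving (b3T j₀) (edgeLaw q π) (edgeLaw q π) :=
    hswap.comp ((heps j₀.succ).comp hinv)
  have hT1 : ∀ᵐ ε ∂edgeLaw q π, ∀ a b, N a b (b3T j₀ ε) = N a b ε.swap := by
    refine push ?_
    filter_upwards [inv2] with e h a b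
    rw [b3T, b3inv_eps, h]
  have hT2 : ∀ᵐ ε ∂edgeLaw q π, ∀ a b, N a b (b3T j₀ ε).swap = N a b ε := by
    refine push ?_
    filter_upwards [inv1] with e h a b
    rw [b3T, b3inv_eps, Prod.swap_swap, h, h]
  have hconst : ∀ a b, ∃ c, N a b =ᵐ[edgeLaw q π] Function.const _ c := by
    intro a b
    refine (b3_ergodic π j₀ hTm.measurable).ae_eq_const_of_ae_eq_comp_ae
      (hNm a b).aestronglyMeasurable ?_
    filter_upwards [hTm.quasiMeasurePreserving.ae hT1, hT2] with ε h1 h2
    exact (h1 a b).trans (h2 a b)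
  choose C hC using hconst
  have hC' : ∀ᵐ ε ∂edgeLaw q π, ∀ a b, N a b ε = C a b := ae_all_iff.2 fun a => ae_all_iff.2 fun b => hC a b
  have hρ : 0 < Real.pi * rho q π s E := mul_pos Real.pi_pos hT.rho_pos
  have hCv : ∀ a b, C a b = if a = b then (Real.pi * rho q π s E)⁻¹ else 0 := by
    intro a b
    have h1 := hL.orth a b
    rw [← Measure.integral_condKernel (hint2 a b), hPf] at h1
    have h2 : ∀ᵐ e ∂starLaw q π, ∫ u, u a none * u b none ∂κ e =
        C a b * (Psi s E e.1 fun k => mB s E (e.2 k)).im := by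
      filter_upwards [inv1, pull hC', hGP, pull hpos] with e a1 a2 a3 a4
      have a5 : (Psi s E e.1 fun k => mB s E (e.2 k)).im ≠ 0 := by
        rw [← a3 0]; exact b3_G_ne (a4 0).1 (a4 0).2 0
      rw [← a2 0 a b, a1 0 a b, div_mul_cancel₀ _ a5]
    rw [integral_congr_ae h2, integral_const_mul] at h1
    have h3 : ∫ e, (Psi s E e.1 fun k => mB s E (e.2 k)).im ∂starLaw q π = Real.pi * rho q π s E := by
      unfold rho
      rw [mul_div_cancel₀ _ Real.pi_pos.ne']
    rw [h3] at h1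
    split_ifs at h1 ⊢
    · exact eq_inv_of_mul_eq_one_left h1
    · exact (mul_eq_zero.1 h1).resolve_right hρ.ne'
  set c := (√(Real.pi * rho q π s E))⁻¹ with hc
  have hc2 : c ^ 2 = (Real.pi * rho q π s E)⁻¹ := by rw [hc, inv_pow, Real.sq_sqrt hρ.le]
  have fin : ∀ᵐ ε ∂edgeLaw q π, K ε = (gpi2 (Fin r) (Fin 2)).map fun w a => c • (chol2 (Γ ε) *ᵥ w a) := by
    filter_upwards [afff, gauss, hC', sw hC', Nfar, hpos] with ε ⟨B, α, hB⟩ h1 h2 h3 h4 h5
    obtain ⟨D, -, h6, h7⟩ := h1 B α hB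
    have hD : ∀ o a b, D o a b = if a = b then c ^ 2 else 0 := by
      intro o a b
      rw [hc2, ← hCv]
      fin_cases o
      · rw [← h2 a b]
        simp only [hN]
        rw [h6, mul_div_cancel_right₀ _ (b3_G_ne h5.1 h5.2 0)]
        rfl
      · rw [← h3 a b, h4, h6, mul_div_cancel_right₀ _ (b3_G_ne h5.1 h5.2 1)]
        rfl
    refine b3_ext fun ξ => ?_
    rw [h7, b3phi_wave, b3_chol h5.1 h5.2]
    congr 4
    refine Finset.sum_congr rfl fun a _ => Finset.sum_congr rfl fun o _ => ?_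
    congr 1
    rw [Finset.sum_eq_single a]
    · simp only [h6, hD, if_true]; rfl
    · intro b _ hb
      simp [h6, hD, hb.symm]
    · simp
  have hW := b3_wave_meas (r := r) hT.meas c
  ext t ht
  rw [← Q.disintegrate K, Measure.compProd_apply ht, hQf, waveE, Measure.map_apply hW ht,
    Measure.prod_apply (hW ht)]
  refine lintegral_congr_ae (fin.mono fun ε hε => ?_)
  simp only
  rw [hε, Measure.map_apply (Continuous.measurable (by fun_prop)) (measurable_prodMk_left ht)]
  rfl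

end Crest.Agent.R166
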