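import Crest.Agent.R166.B3.Gauss

/-!
# Row 166, block B3: an affine posterior mean forces a Gaussian prior
-/

set_option autoImplicit false
set_option linter.unusedSectionVars false

open MeasureTheory ProbabilityTheory Filter Topology Complex
open scoped ENNReal NNReal BigOperators Matrix

noncomputable section

namespace Crest.Agent.R166

theorem b3_deriv {X : Type} [MeasurableSpace X] (κ : Measure X) {V B : X → ℝ} (hV : Measurable V)
    (hB : Measurable B) (hVi : Integrable V κ) (hVB : Integrable (fun u => V u * B u) κ) (t : ℝ) :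
    HasDerivAt (fun t : ℝ => ∫ u, (V u : ℂ) * cexp ((t * B u : ℝ) * I) ∂κ)
      (∫ u, ((V u * B u : ℝ) : ℂ) * I * cexp ((t * B u : ℝ) * I) ∂κ) t := by
  refine (hasDerivAt_integral_of_dominated_loc_of_deriv_le (bound := fun u => |V u * B u|)
    (F := fun (t : ℝ) u => (V u : ℂ) * cexp ((t * B u : ℝ) * I))
    (F' := fun (t : ℝ) u => ((V u * B u : ℝ) : ℂ) * I * cexp ((t * B u : ℝ) * I))
    (s := Set.univ) Filter.univ_mem ?_ ?_ ?_ ?_ hVB.abs ?_).2
  · exact .of_forall fun t => Measurable.aestronglyMeasurable (by fun_prop)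
  · refine hVi.abs.mono' (Measurable.aestronglyMeasurable (by fun_prop)) (ae_of_all _ fun u => ?_)
    rw [norm_mul, Complex.norm_exp_ofReal_mul_I, mul_one, Complex.norm_real, Real.norm_eq_abs]
  · exact Measurable.aestronglyMeasurable (by fun_prop)
  · refine ae_of_all _ fun u t _ => ?_
    rw [norm_mul, norm_mul, Complex.norm_exp_ofReal_mul_I, Complex.norm_I, mul_one, mul_one,
      Complex.norm_real, Real.norm_eq_abs]
  · refine ae_of_all _ fun u t _ => ?_
    have h1 : HasDerivAt (fun t : ℝ => ((t * B u : ℝ) : ℂ) * I) ((B u : ℂ) * I) t := by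
      have := ((hasDerivAt_id t).mul_const (B u)).ofReal_comp.mul_const I
      simpa using this
    refine (h1.cexp.const_mul (V u : ℂ)).congr_deriv ?_
    push_cast; ring

section
variable {A ι : Type} [Fintype A] [Fintype ι]

/-- the pairing -/
def b3ip (ξ u : A → ι → ℝ) : ℝ := ∑ a, ∑ o, ξ a o * u a o

theorem b3ip_smul (t : ℝ) (ξ u : A → ι → ℝ) : b3ip (fun a o => t * ξ a o) u = t * b3ip ξ u := by
  simp only [b3ip, Finset.mul_sum, mul_assoc]

theorem b3ip_meas (ξ : A → ι → ℝ) : Measurable (b3ip ξ) := by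
  unfold b3ip; fun_prop

/-- characteristic function -/
def b3phi (κ : Measure (A → ι → ℝ)) (ξ : A → ι → ℝ) : ℂ := ∫ u, cexp ((b3ip ξ u : ℝ) * I) ∂κ

/-- its gradient (up to `i`) -/
def b3m (κ : Measure (A → ι → ℝ)) (ξ : A → ι → ℝ) (a : A) (o : ι) : ℂ :=
  ∫ u, (u a o : ℂ) * cexp ((b3ip ξ u : ℝ) * I) ∂κ

variable {κ : Measure (A → ι → ℝ)} [IsProbabilityMeasure κ]
  (h2 : ∀ a o, Integrable (fun u : A → ι → ℝ => u a o ^ 2) κ)
include h2

theorem b3_int1 (a : A) (o : ι) : Integrable (fun u : A → ι → ℝ => u a o) κ := by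
  refine ((integrable_const (1 : ℝ)).add (h2 a o)).mono'
    (Measurable.aestronglyMeasurable (by fun_prop)) (ae_of_all _ fun u => ?_)
  simp only [Pi.add_apply, Real.norm_eq_abs]
  nlinarith [sq_abs (u a o), sq_nonneg (|u a o| - 1)]

omit [IsProbabilityMeasure κ] in
theorem b3_int2 (a b : A) (o o' : ι) : Integrable (fun u : A → ι → ℝ => u a o * u b o') κ := by
  refine ((h2 a o).add (h2 b o')).mono'
    (Measurable.aestronglyMeasurable (by fun_prop)) (ae_of_all _ fun u => ?_)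
  simp only [Pi.add_apply, Real.norm_eq_abs, abs_mul]
  nlinarith [sq_abs (u a o), sq_abs (u b o'), sq_nonneg (|u a o| - |u b o'|), abs_nonneg (u a o),
    abs_nonneg (u b o')]

theorem b3_int_ip (ξ : A → ι → ℝ) : Integrable (fun u => (1 : ℝ) * b3ip ξ u) κ := by
  simp only [one_mul]
  exact integrable_finsetSum _ fun a _ => integrable_finsetSum _ fun o _ => (b3_int1 h2 a o).const_mul _

omit [IsProbabilityMeasure κ] in
theorem b3_int_mul_ip (ξ : A → ι → ℝ) (a : A) (o : ι) : Integrable (fun u => u a o * b3ip ξ u) κ := by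
  simp only [b3ip, Finset.mul_sum]
  refine integrable_finsetSum _ fun b _ => integrable_finsetSum _ fun o' _ => ?_
  simpa only [mul_left_comm] using (b3_int2 h2 a b o o').const_mul (ξ b o')

theorem b3m_int (ξ : A → ι → ℝ) (a : A) (o : ι) :
    Integrable (fun u : A → ι → ℝ => (u a o : ℂ) * cexp ((b3ip ξ u : ℝ) * I)) κ := by
  have := b3ip_meas ξ
  refine (b3_int1 h2 a o).abs.mono' (Measurable.aestronglyMeasurable (by fun_prop))
    (ae_of_all _ fun u => ?_)
  rw [norm_mul, Complex.norm_exp_ofReal_mul_I, mul_one, Complex.norm_real, Real.norm_eq_abs]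

theorem b3phi_deriv (ξ : A → ι → ℝ) (t : ℝ) : HasDerivAt (fun t : ℝ => b3phi κ fun a o => t * ξ a o)
    (I * ∑ a, ∑ o, ξ a o * b3m κ (fun a o => t * ξ a o) a o) t := by
  have h := b3_deriv κ (V := fun _ => 1) measurable_const (b3ip_meas ξ) (integrable_const _)
    (b3_int_ip h2 ξ) t
  simp only [ofReal_one, one_mul] at h
  simp only [b3phi, b3ip_smul]
  convert h using 1
  have e : ∀ u, ((b3ip ξ u : ℝ) : ℂ) * I * cexp ((t * b3ip ξ u : ℝ) * I) =
      I * ∑ a, ∑ o, ξ a o * ((u a o : ℂ) * cexp ((b3ip (fun a o => t * ξ a o) u : ℝ) * I)) := by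
    intro u
    rw [b3ip_smul]
    simp only [← mul_assoc, ← Finset.sum_mul]
    conv_lhs => enter [1, 1]; unfold b3ip
    push_cast; ring
  simp only [e]
  rw [integral_const_mul, integral_finsetSum _ fun a _ => integrable_finsetSum _ fun o _ =>
    (b3m_int h2 _ a o).const_mul _]
  congr 1
  refine Finset.sum_congr rfl fun a _ => ?_
  rw [integral_finsetSum _ fun o _ => (b3m_int h2 _ a o).const_mul _]
  simp only [integral_const_mul, b3m]

theorem b3m_deriv0 (ξ : A → ι → ℝ) (a : A) (o : ι) :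
    HasDerivAt (fun t : ℝ => b3m κ (fun a o => t * ξ a o) a o)
      (((∫ u, u a o * b3ip ξ u ∂κ : ℝ) : ℂ) * I) 0 := by
  have h := b3_deriv κ (V := fun u : A → ι → ℝ => u a o) (by fun_prop) (b3ip_meas ξ) (b3_int1 h2 a o)
    (b3_int_mul_ip h2 ξ a o) 0
  simp only [zero_mul, ofReal_zero, Complex.exp_zero, mul_one, integral_mul_const,
    integral_complex_ofReal] at h
  simpa only [b3m, b3ip_smul] using h

theorem b3_ode [DecidableEq A] (hmean : ∀ a o, ∫ u, u a o ∂κ = 0) (Γ : Matrix ι ι ℝ) (hΓ : ∀ o, Γ o o ≠ 0)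
    (α : A → ι → ℝ) (B : ι → Matrix A A ℝ)
    (hs : ∀ ξ a o, b3m κ ξ a o = α a o * b3phi κ ξ +
      ∑ b, B o a b * (b3m κ ξ b o + ((∑ o', Γ o o' * ξ b o' : ℝ) : ℂ) * I * b3phi κ ξ)) :
    (∀ a b o o', ∫ u, u a o * u b o' ∂κ = ((1 - B o)⁻¹ * B o) a b * Γ o o') ∧
    ∀ ξ, b3phi κ ξ =
      cexp (-((∑ a, ∑ o, ξ a o * ∑ b, ∑ o', (∫ u, u a o * u b o' ∂κ) * ξ b o' : ℝ) : ℂ) / 2) := by
  classical
  have hphi0 : b3phi κ (fun _ _ => 0) = 1 := by simp [b3phi, b3ip]
  have hm0 : ∀ a o, b3m κ (fun _ _ => 0) a o = 0 := by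
    intro a o
    simp [b3m, b3ip, integral_complex_ofReal, hmean]
  have hα : ∀ a o, α a o = 0 := by
    intro a o
    have := hs (fun _ _ => 0) a o
    simpa [hphi0, hm0] using this.symm
  have hS : ∀ (ξ : A → ι → ℝ) a o, ∫ u, u a o * b3ip ξ u ∂κ =
      ∑ b, B o a b * (∫ u, u b o * b3ip ξ u ∂κ + ∑ o', Γ o o' * ξ b o') := by
    intro ξ a o
    have d1 := b3m_deriv0 h2 ξ a o
    have d2 : HasDerivAt (fun t : ℝ => ∑ b, (B o a b : ℂ) * (b3m κ (fun a o => t * ξ a o) b o +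
        ((∑ o', Γ o o' * ξ b o' : ℝ) : ℂ) * I * ((t : ℂ) * b3phi κ fun a o => t * ξ a o)))
        (∑ b, (B o a b : ℂ) * (((∫ u, u b o * b3ip ξ u ∂κ : ℝ) : ℂ) * I +
          ((∑ o', Γ o o' * ξ b o' : ℝ) : ℂ) * I * 1)) 0 := by
      refine HasDerivAt.fun_sum fun b _ => HasDerivAt.const_mul _ ((b3m_deriv0 h2 ξ b o).fun_add
        (HasDerivAt.const_mul _ ?_))
      have := (hasDerivAt_id (0 : ℝ)).ofReal_comp.fun_mul (b3phi_deriv h2 ξ 0)
      simpa [hphi0] using this
    have e : (fun t : ℝ => b3m κ (fun a o => t * ξ a o) a o) = fun t : ℝ =>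
        ∑ b, (B o a b : ℂ) * (b3m κ (fun a o => t * ξ a o) b o +
        ((∑ o', Γ o o' * ξ b o' : ℝ) : ℂ) * I * ((t : ℂ) * b3phi κ fun a o => t * ξ a o)) := by
      funext t
      rw [hs, hα, ofReal_zero, zero_mul, zero_add]
      refine Finset.sum_congr rfl fun b _ => ?_
      have : (∑ o', Γ o o' * (t * ξ b o') : ℝ) = t * ∑ o', Γ o o' * ξ b o' := by
        rw [Finset.mul_sum]; exact Finset.sum_congr rfl fun _ _ => by ring
      rw [this]; push_cast; ring
    rw [e] at d1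
    have := d1.unique d2
    simp only [mul_one, ← add_mul, ← mul_assoc, ← Finset.sum_mul] at this
    exact_mod_cast mul_right_cancel₀ I_ne_zero this
  set Sm : ι → ι → Matrix A A ℝ := fun o o' => Matrix.of fun a b => ∫ u, u a o * u b o' ∂κ with hSm
  have hmat : ∀ o o', (1 - B o) * Sm o o' = Γ o o' • B o := by
    intro o o'
    ext a b'
    have := hS (fun b k => if b = b' ∧ k = o' then 1 else 0) a o
    have e1 : ∀ u : A → ι → ℝ, b3ip (fun b k => if b = b' ∧ k = o' then 1 else 0) u = u b' o' := by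
      intro u
      simp [b3ip, ite_and]
    simp only [e1] at this
    simp only [ite_and, mul_add, Finset.sum_add_distrib] at this
    rw [Matrix.sub_mul, Matrix.one_mul]
    simp only [Matrix.sub_apply, Matrix.mul_apply, hSm, Matrix.of_apply,
      Matrix.smul_apply, smul_eq_mul]
    rw [this]
    simp [mul_comm]
  have hdet : ∀ o, IsUnit (1 - B o).det := by
    intro o
    refine Matrix.isUnit_det_of_right_inverse (B := (Γ o o)⁻¹ • Sm o o + 1) ?_
    rw [Matrix.mul_add, Matrix.mul_smul, hmat, smul_smul, inv_mul_cancel₀ (hΓ o), one_smul, mul_one]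
    simp
  have hcov : ∀ o o', Sm o o' = Γ o o' • ((1 - B o)⁻¹ * B o) := by
    intro o o'
    rw [← Matrix.mul_smul, ← hmat, ← Matrix.mul_assoc, Matrix.nonsing_inv_mul _ (hdet o), Matrix.one_mul]
  have hcov' : ∀ a b o o', ∫ u, u a o * u b o' ∂κ = ((1 - B o)⁻¹ * B o) a b * Γ o o' := by
    intro a b o o'
    have := congrFun (congrFun (hcov o o') a) b
    simpa [hSm, mul_comm] using this
  refine ⟨hcov', fun ξ => ?_⟩
  have hm : ∀ (ξ : A → ι → ℝ) a o, b3m κ ξ a o =
      ((∑ b, ∑ o', (∫ u, u a o * u b o' ∂κ) * ξ b o' : ℝ) : ℂ) * I * b3phi κ ξ := by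
    intro ξ a o
    set z : A → ℂ := fun b => ((∑ o', Γ o o' * ξ b o' : ℝ) : ℂ) * I * b3phi κ ξ with hz
    have e1 : ((1 - B o).map ofRealHom) *ᵥ (fun b => b3m κ ξ b o) = (B o).map ofRealHom *ᵥ z := by
      ext c
      rw [Matrix.map_sub _ (map_sub _), Matrix.map_one _ (map_zero _) (map_one _), Matrix.sub_mulVec,
        Matrix.one_mulVec, Pi.sub_apply, hs ξ c o, hα]
      simp [Matrix.mulVec, dotProduct, mul_add, Finset.sum_add_distrib, hz]
    have e2 := congrArg (fun v => ((1 - B o)⁻¹.map ofRealHom *ᵥ v) a) e1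
    simp only [Matrix.mulVec_mulVec, ← Matrix.map_mul, Matrix.nonsing_inv_mul _ (hdet o),
      Matrix.map_one _ (map_zero ofRealHom) (map_one ofRealHom), Matrix.one_mulVec] at e2
    rw [e2]
    simp only [Matrix.mulVec, dotProduct, Matrix.map_apply, hz, hcov', mul_assoc, ← Finset.mul_sum,
      ofRealHom_eq_coe]
    push_cast
    simp only [Finset.sum_mul, mul_assoc]
  set σ : ℝ := ∑ a, ∑ o, ξ a o * ∑ b, ∑ o', (∫ u, u a o * u b o' ∂κ) * ξ b o' with hσ
  have hd : ∀ t : ℝ, HasDerivAt (fun t : ℝ => (b3phi κ fun a o => t * ξ a o) * cexp ((t : ℂ) ^ 2 * σ / 2))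
      0 t := by
    intro t
    have h1 : HasDerivAt (fun t : ℝ => (t : ℂ) ^ 2 * σ / 2) ((t : ℂ) * σ) t := by
      have := (((hasDerivAt_pow 2 t).mul_const σ).div_const 2).ofReal_comp
      convert this using 1
      · funext s; push_cast; ring
      · push_cast; ring
    refine ((b3phi_deriv h2 ξ t).fun_mul h1.cexp).congr_deriv ?_
    have e : ∑ a, ∑ o, (ξ a o : ℂ) * b3m κ (fun a o => t * ξ a o) a o =
        (t * σ) * I * b3phi κ fun a o => t * ξ a o := by
      simp only [hm, hσ]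
      push_cast
      simp only [Finset.mul_sum, Finset.sum_mul]
      refine Finset.sum_congr rfl fun a _ => Finset.sum_congr rfl fun o _ =>
        Finset.sum_congr rfl fun b _ => Finset.sum_congr rfl fun o' _ => by ring
    rw [e]
    linear_combination (t * σ * (b3phi κ fun a o => t * ξ a o) * cexp ((t : ℂ) ^ 2 * σ / 2)) * I_mul_I
  have hc := is_const_of_deriv_eq_zero (fun t => (hd t).differentiableAt) (fun t => (hd t).deriv) 1 0
  simp only [one_mul, zero_mul, hphi0, ofReal_one, one_pow, ofReal_zero] at hc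
  have hne : cexp ((σ : ℂ) / 2) ≠ 0 := Complex.exp_ne_zero _
  refine mul_right_cancel₀ hne (hc.trans ?_)
  rw [← Complex.exp_add]
  simp [neg_div]

end

/-- `γ⁻¹ (1 - B)⁻¹ B` -/
def b3h {r : ℕ} (γ : ℝ) (B : Matrix (Fin r) (Fin r) ℝ) : Matrix (Fin r) (Fin r) ℝ :=
  γ⁻¹ • ((1 - B)⁻¹ * B)

theorem b3_den_pos {ι : Type} [Fintype ι] {r : ℕ} (κ : Measure (Fin r → ι → ℝ)) [IsProbabilityMeasure κ]
    {Q : (ι → ℝ) → ℝ} (hQ : Continuous Q) (hQ0 : ∀ x, 0 ≤ Q x) {γ : ℝ} (hγ : 0 < γ)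
    (x : Fin r → ι → ℝ) : 0 < ∫ u, Real.exp (-(γ * ∑ b, Q (x b - u b)) / 2) ∂κ := by
  refine integral_exp_pos ((integrable_const (1 : ℝ)).mono'
    (Continuous.aestronglyMeasurable (by fun_prop)) (ae_of_all _ fun u => ?_))
  rw [Real.norm_of_nonneg (Real.exp_pos _).le, Real.exp_le_one_iff]
  have : 0 ≤ γ * ∑ b, Q (x b - u b) := mul_nonneg hγ.le (Finset.sum_nonneg fun b _ => hQ0 _)
  linarith

/-- affine posterior mean implies Gaussian prior -/
theorem b3_gauss {ι : Type} [Fintype ι] [DecidableEq ι] {r : ℕ} (κ : Measure (Fin r → ι → ℝ))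
    [IsProbabilityMeasure κ] (h2 : ∀ a o, Integrable (fun u : Fin r → ι → ℝ => u a o ^ 2) κ)
    (hmean : ∀ a o, ∫ u, u a o ∂κ = 0) (Γ C Pm : Matrix ι ι ℝ) (hΓ : ∀ o, Γ o o ≠ 0)
    (hC : C * Cᵀ = Γ) (hP : Γ * Pm = 1) (hPs : Pmᵀ = Pm) {Q : (ι → ℝ) → ℝ}
    (hQ : ∀ x, Q x = x ⬝ᵥ Pm *ᵥ x) {γ : ℝ} (hγ : 0 < γ) (α : Fin r → ι → ℝ)
    (B : ι → Matrix (Fin r) (Fin r) ℝ)
    (h : ∀ x a o, pmean κ Q γ x a o = α a o + ∑ b, B o a b * x b o) :
    (∀ a b o o', ∫ u, u a o * u b o' ∂κ = b3h γ (B o) a b * Γ o o') ∧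
    ∀ ξ, b3phi κ ξ =
      cexp (-((∑ a, ∑ o, ξ a o * ∑ b, ∑ o', (∫ u, u a o * u b o' ∂κ) * ξ b o' : ℝ) : ℂ) / 2) := by
  set R := Cᵀ * Pm with hR
  have hCR : C * R = 1 := by rw [hR, ← Matrix.mul_assoc, hC, hP]
  have hRC : R * C = 1 := mul_eq_one_comm.1 hCR
  have hRR : Rᵀ * R = Pm := by
    rw [hR, Matrix.transpose_mul, Matrix.transpose_transpose, hPs, Matrix.mul_assoc, ← hR, hCR,
      Matrix.mul_one]
  have hQR : ∀ x, Q x = ∑ o, (R *ᵥ x) o ^ 2 := by
    intro x
    rw [hQ, ← hRR, ← Matrix.mulVec_mulVec, Matrix.dotProduct_mulVec, Matrix.vecMul_transpose]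
    simp [dotProduct, sq]
  set g := √γ with hg
  have hg0 : 0 < g := Real.sqrt_pos.2 hγ
  have hgg : g ^ 2 = γ := Real.sq_sqrt hγ.le
  set Y : (Fin r → ι → ℝ) → Fin r → ι → ℝ := fun u a => g • (R *ᵥ u a) with hY
  have hYm : Measurable Y := by
    simp only [hY]
    fun_prop
  have hY2 : ∀ a o, Integrable (fun u => Y u a o ^ 2) κ := by
    intro a o
    have e : ∀ u, Y u a o ^ 2 = ∑ k, ∑ k', (g ^ 2 * R o k * R o k') * (u a k * u a k') := by
      intro u
      simp only [hY, Matrix.mulVec, dotProduct, Pi.smul_apply, smul_eq_mul]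
      rw [Finset.mul_sum, sq, Finset.sum_mul_sum]
      exact Finset.sum_congr rfl fun _ _ => Finset.sum_congr rfl fun _ _ => by ring
    simp only [e]
    exact integrable_finsetSum _ fun k _ => integrable_finsetSum _ fun k' _ =>
      (b3_int2 h2 a a k k').const_mul _
  have hQc : Continuous Q := by
    rw [funext hQR]
    simp only [Matrix.mulVec, dotProduct]
    fun_prop
  have hQ0 : ∀ x, 0 ≤ Q x := fun x => by rw [hQR]; positivity
  have key := b3_ode h2 hmean (γ⁻¹ • Γ) (fun o => by simp [hγ.ne', hΓ o]) α B ?_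
  · refine ⟨fun a b o o' => ?_, key.2⟩
    rw [key.1]
    simp only [b3h, Matrix.smul_apply, smul_eq_mul]
    ring
  intro ξ a o
  have hw := b3_white κ hYm hY2 (V := fun u => u a o) (by fun_prop) (b3_int1 h2 a o) (α a o)
    (fun b k => B o a b * (g⁻¹ * C o k)) ?_ (fun b => g⁻¹ • (Cᵀ *ᵥ ξ b))
  · have e1 : ∀ u, ∑ b, ∑ k, (g⁻¹ • (Cᵀ *ᵥ ξ b)) k * Y u b k = b3ip ξ u := by
      intro u
      refine Finset.sum_congr rfl fun b _ => ?_
      have : (g⁻¹ • (Cᵀ *ᵥ ξ b)) ⬝ᵥ (g • (R *ᵥ u b)) = ξ b ⬝ᵥ u b := by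
        rw [smul_dotProduct, dotProduct_smul, smul_smul, inv_mul_cancel₀ hg0.ne', one_smul,
          Matrix.mulVec_transpose, ← Matrix.dotProduct_mulVec, Matrix.mulVec_mulVec, hCR,
          Matrix.one_mulVec]
      exact this
    simp only [e1] at hw
    rw [b3m, hw]
    congr 1
    refine Finset.sum_congr rfl fun b _ => ?_
    have hi : ∀ k, Integrable (fun u => ((Y u b k : ℂ) + ((g⁻¹ • (Cᵀ *ᵥ ξ b)) k : ℝ) * I) *
        cexp ((b3ip ξ u : ℝ) * I)) κ := by
      intro k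
      have := b3ip_meas ξ
      have hi1 : Integrable (fun u => Y u b k) κ := by
        simp only [hY, Matrix.mulVec, dotProduct, Pi.smul_apply, smul_eq_mul]
        exact (integrable_finsetSum _ fun k' _ => (b3_int1 h2 b k').const_mul _).const_mul _
      refine (hi1.ofReal.add (integrable_const (((g⁻¹ • (Cᵀ *ᵥ ξ b)) k : ℝ) * I))).norm.mono'
        (Measurable.aestronglyMeasurable (by fun_prop)) (ae_of_all _ fun u => ?_)
      rw [norm_mul, Complex.norm_exp_ofReal_mul_I, mul_one]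
      exact le_rfl
    have e2 : ∀ u, ∑ k, ((g⁻¹ * C o k : ℝ) : ℂ) * (((Y u b k : ℂ) + ((g⁻¹ • (Cᵀ *ᵥ ξ b)) k : ℝ) * I) *
        cexp ((b3ip ξ u : ℝ) * I)) = (u b o : ℂ) * cexp ((b3ip ξ u : ℝ) * I) +
          ((∑ o', (γ⁻¹ • Γ) o o' * ξ b o' : ℝ) : ℂ) * I * cexp ((b3ip ξ u : ℝ) * I) := by
      intro u
      have a1 : ∑ k, g⁻¹ * C o k * Y u b k = u b o := by
        have : (g⁻¹ • C *ᵥ (g • (R *ᵥ u b))) o = u b o := by
          rw [Matrix.mulVec_smul, smul_smul, inv_mul_cancel₀ hg0.ne', one_smul, Matrix.mulVec_mulVec, hCR,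
            Matrix.one_mulVec]
        rw [← this]
        simp only [hY, Pi.smul_apply, smul_eq_mul, Matrix.mulVec, dotProduct, Finset.mul_sum, mul_assoc]
      have a2 : ∑ k, g⁻¹ * C o k * (g⁻¹ • (Cᵀ *ᵥ ξ b)) k = ∑ o', (γ⁻¹ • Γ) o o' * ξ b o' := by
        have : (g⁻¹ • C *ᵥ (g⁻¹ • (Cᵀ *ᵥ ξ b))) o = ((γ⁻¹ • Γ) *ᵥ ξ b) o := by
          rw [Matrix.mulVec_smul, smul_smul, Matrix.mulVec_mulVec, hC, ← mul_inv, ← sq, hgg,
            Matrix.smul_mulVec]
        refine Eq.trans ?_ this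
        simp only [Pi.smul_apply, smul_eq_mul, Matrix.mulVec, dotProduct, Finset.mul_sum, mul_assoc]
      rw [← a1, ← a2]
      push_cast
      simp only [Finset.sum_mul, ← Finset.sum_add_distrib]
      exact Finset.sum_congr rfl fun k _ => by ring
    have e3 : ∑ k, ((g⁻¹ * C o k : ℝ) : ℂ) * ∫ u, ((Y u b k : ℂ) + ((g⁻¹ • (Cᵀ *ᵥ ξ b)) k : ℝ) * I) *
        cexp ((b3ip ξ u : ℝ) * I) ∂κ =
        b3m κ ξ b o + ((∑ o', (γ⁻¹ • Γ) o o' * ξ b o' : ℝ) : ℂ) * I * b3phi κ ξ := by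
      simp only [← integral_const_mul]
      rw [← integral_finsetSum _ fun k _ => (hi k).const_mul _]
      simp only [e2]
      rw [integral_add (b3m_int h2 ξ b o), integral_const_mul]
      · rfl
      · refine Integrable.const_mul ((integrable_const (1 : ℝ)).mono'
          (Measurable.aestronglyMeasurable (by have := b3ip_meas ξ; fun_prop)) (ae_of_all _ fun u => ?_)) _
        rw [Complex.norm_exp_ofReal_mul_I]
    rw [← e3, Finset.mul_sum]
    refine Finset.sum_congr rfl fun k _ => ?_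
    push_cast; ring
  · intro w
    set x : Fin r → ι → ℝ := fun b => g⁻¹ • (C *ᵥ w b) with hx
    have e1 : ∀ u : Fin r → ι → ℝ, Real.exp (-(γ * ∑ b, Q (x b - u b)) / 2) =
        Real.exp (-(∑ b, ∑ k, w b k ^ 2) / 2) *
          Real.exp (∑ b, ∑ k, (w b k * Y u b k - Y u b k ^ 2 / 2)) := by
      intro u
      rw [← Real.exp_add]
      congr 1
      have : ∀ b, γ * Q (x b - u b) = ∑ k, (w b k - Y u b k) ^ 2 := by
        intro b
        have h1 : w b - Y u b = g • (R *ᵥ (x b - u b)) := by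
          simp only [hx, hY, Matrix.mulVec_sub, smul_sub, Matrix.mulVec_smul, smul_smul,
            mul_inv_cancel₀ hg0.ne', one_smul, Matrix.mulVec_mulVec, hRC, Matrix.one_mulVec]
        rw [hQR, Finset.mul_sum]
        refine Finset.sum_congr rfl fun k _ => ?_
        have h3 := congrFun h1 k
        simp only [Pi.sub_apply, Pi.smul_apply, smul_eq_mul] at h3
        rw [h3, mul_pow, hgg]
      rw [Finset.mul_sum]
      simp only [this, ← Finset.sum_neg_distrib, Finset.sum_div, ← Finset.sum_add_distrib]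
      exact Finset.sum_congr rfl fun _ _ => Finset.sum_congr rfl fun _ _ => by ring
    have h1 := h x a o
    have hpos := b3_den_pos κ hQc hQ0 hγ x
    unfold pmean at h1
    rw [div_eq_iff hpos.ne'] at h1
    simp only [e1, mul_left_comm _ (Real.exp (-(∑ b, ∑ k, w b k ^ 2) / 2)), integral_const_mul] at h1
    have h3 := mul_left_cancel₀ (Real.exp_pos _).ne' h1
    rw [h3]
    congr 2
    refine Finset.sum_congr rfl fun b _ => ?_
    simp only [hx, Pi.smul_apply, smul_eq_mul, Matrix.mulVec, dotProduct, Finset.mul_sum, mul_assoc]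

end Crest.Agent.R166
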